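import Mathlib

/-!
# Cocompact groups of biholomorphisms of bounded domains

Support file for the hand-ins on problem P274 (bounded-domain question of Kollar and Pardon).
Main result `eq_id_of_finite_conj`: if a group `Γ` of biholomorphisms of a bounded domain
`U` in a finite-dimensional complex space acts with compact orbit space, then every holomorphic
self-map of `U` having only finitely many `Γ`-conjugates is the identity.

The proof takes a pointwise limit of group elements along an ultrafilter (a normal-family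
argument made explicit through the Schwarz lemma), and applies the maximum modulus principle to
the limiting displacement.
-/

open Metric Set Filter Topology

namespace Vale.Agent.H74

variable {E : Type*} [NormedAddCommGroup E] [NormedSpace ℂ E]

/-- Uniform second-order Taylor estimate from the Schwarz lemma. -/
lemma taylor_bound {G : E → E} {x z : E} {r R : ℝ}
    (hG : DifferentiableOn ℂ G (ball x r)) (hmaps : MapsTo G (ball x r) (closedBall 0 R))
    (hz : z ∈ ball x r) :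
    ‖G z - G x - fderiv ℂ G x (z - x)‖ ≤ 4 * R * (dist z x / r) ^ 2 := by
  have hr : 0 < r := nonempty_ball.mp ⟨z, hz⟩
  have hx : x ∈ ball x r := mem_ball_self hr
  have hR : 0 ≤ R := by
    have := hmaps hx
    rw [mem_closedBall_zero_iff] at this
    exact (norm_nonneg _).trans this
  have hmaps2 : MapsTo G (ball x r) (closedBall (G x) (2 * R)) := by
    intro w hw
    have h1 := hmaps hw
    have h2 := hmaps hx
    rw [mem_closedBall_zero_iff] at h1 h2
    rw [mem_closedBall, dist_eq_norm]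
    calc ‖G w - G x‖ ≤ ‖G w‖ + ‖G x‖ := norm_sub_le _ _
      _ ≤ 2 * R := by linarith
  have hD : ‖fderiv ℂ G x‖ ≤ 2 * R / r := Complex.norm_fderiv_le_div_of_mapsTo_ball hG hmaps2 hr
  set D := fderiv ℂ G x with hDdef
  have hdiffAt : DifferentiableAt ℂ G x := hG.differentiableAt (ball_mem_nhds x hr)
  set f : E → E := fun w => G w - D (w - x) with hf
  have hfd : DifferentiableOn ℂ f (ball x r) := by
    apply hG.sub
    exact (D.differentiable.comp (differentiable_id.sub_const x)).differentiableOn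
  have hfx : f x = G x := by simp [hf]
  have hfmaps : MapsTo f (ball x r) (closedBall (f x) (4 * R)) := by
    intro w hw
    rw [mem_closedBall, dist_eq_norm, hfx]
    have h1 := hmaps2 hw
    rw [mem_closedBall, dist_eq_norm] at h1
    have h2 : ‖D (w - x)‖ ≤ 2 * R := by
      calc ‖D (w - x)‖ ≤ ‖D‖ * ‖w - x‖ := D.le_opNorm _
        _ ≤ (2 * R / r) * r := by
          apply mul_le_mul hD _ (norm_nonneg _) (by positivity)
          rw [← dist_eq_norm]; exact (mem_ball.mp hw).le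
        _ = 2 * R := by field_simp
    calc ‖f w - G x‖ = ‖(G w - G x) - D (w - x)‖ := by simp only [hf]; congr 1; abel
      _ ≤ ‖G w - G x‖ + ‖D (w - x)‖ := norm_sub_le _ _
      _ ≤ 4 * R := by linarith
  have hlittle : (fun w => f w - f x) =o[𝓝 x] (fun w => ‖w - x‖ ^ 1) := by
    have h := hdiffAt.hasFDerivAt
    rw [hasFDerivAt_iff_isLittleO] at h
    have h2 : (fun w => f w - f x) = fun w => G w - G x - D (w - x) := by
      funext w; simp only [hf, sub_self, map_zero, sub_zero]; abel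
    rw [h2]
    simpa using h.norm_right
  have key := Complex.dist_le_mul_div_pow_of_mapsTo_ball_of_isLittleO hfd hfmaps hlittle hz
  rw [dist_eq_norm, hfx] at key
  have h3 : f z - G x = G z - G x - D (z - x) := by simp only [hf]; abel
  rw [h3] at key
  simpa using key

variable [FiniteDimensional ℂ E]

/-- A pointwise ultrafilter limit of a uniformly bounded family of holomorphic maps
is holomorphic. -/
lemma exists_limit {ι : Type*} (𝒰 : Ultrafilter ι) {U : Set E} (hU : IsOpen U) {R : ℝ}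
    (G : ι → E → E) (hG : ∀ i, DifferentiableOn ℂ (G i) U)
    (hmaps : ∀ i, MapsTo (G i) U (closedBall 0 R)) :
    ∃ L : E → E, DifferentiableOn ℂ L U ∧ MapsTo L U (closedBall 0 R) ∧
      ∀ x ∈ U, Tendsto (fun i => G i x) 𝒰 (𝓝 (L x)) := by
  have : ProperSpace E := FiniteDimensional.proper_rclike ℂ E
  have hpt : ∀ x ∈ U, ∃ l ∈ closedBall (0:E) R, Tendsto (fun i => G i x) 𝒰 (𝓝 l) := by
    intro x hx
    have hmem : closedBall (0:E) R ∈ 𝒰.map (fun i => G i x) := by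
      rw [Ultrafilter.mem_map]
      exact Filter.univ_mem' (fun i => hmaps i hx)
    obtain ⟨l, hl, hle⟩ := (isCompact_closedBall (0:E) R).ultrafilter_le_nhds' _ hmem
    exact ⟨l, hl, hle⟩
  choose! L hLmem hLtend using hpt
  refine ⟨L, ?_, fun x hx => hLmem x hx, hLtend⟩
  intro x hx
  obtain ⟨r, hr, hball⟩ := Metric.isOpen_iff.mp hU x hx
  have hxb : x ∈ ball x r := mem_ball_self hr
  have hRnonneg : 0 ≤ R := by
    have := hLmem x hx
    rw [mem_closedBall_zero_iff] at this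
    exact (norm_nonneg _).trans this
  have hDbound : ∀ i, fderiv ℂ (G i) x ∈ closedBall (0 : E →L[ℂ] E) (2 * R / r) := by
    intro i
    rw [mem_closedBall_zero_iff]
    apply Complex.norm_fderiv_le_div_of_mapsTo_ball ((hG i).mono hball) _ hr
    intro w hw
    have h1 := hmaps i (hball hw)
    have h2 := hmaps i hx
    rw [mem_closedBall_zero_iff] at h1 h2
    rw [mem_closedBall, dist_eq_norm]
    calc ‖G i w - G i x‖ ≤ ‖G i w‖ + ‖G i x‖ := norm_sub_le _ _
      _ ≤ 2 * R := by linarith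
  have hmemD : closedBall (0 : E →L[ℂ] E) (2 * R / r) ∈ 𝒰.map (fun i => fderiv ℂ (G i) x) := by
    rw [Ultrafilter.mem_map]
    exact Filter.univ_mem' hDbound
  obtain ⟨A, -, hAtend⟩ :=
    (isCompact_closedBall (0 : E →L[ℂ] E) (2 * R / r)).ultrafilter_le_nhds' _ hmemD
  have hAtend' : Tendsto (fun i => fderiv ℂ (G i) x) 𝒰 (𝓝 A) := hAtend
  have hbound : ∀ z ∈ ball x r, ‖L z - L x - A (z - x)‖ ≤ 4 * R * (dist z x / r) ^ 2 := by
    intro z hz
    have ht : Tendsto (fun i => ‖G i z - G i x - fderiv ℂ (G i) x (z - x)‖) 𝒰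
        (𝓝 ‖L z - L x - A (z - x)‖) := by
      apply Tendsto.norm
      apply Tendsto.sub (Tendsto.sub (hLtend z (hball hz)) (hLtend x hx))
      exact ((ContinuousLinearMap.apply ℂ E (z - x)).continuous.tendsto A).comp hAtend'
    exact le_of_tendsto' ht
      (fun i => taylor_bound ((hG i).mono hball) ((hmaps i).mono_left hball) hz)
  have hderiv : HasFDerivAt L A x := by
    rw [hasFDerivAt_iff_isLittleO_nhds_zero]
    have hO : (fun h => L (x + h) - L x - A h) =O[𝓝 0] fun h : E => ‖h‖ ^ 2 := by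
      apply Asymptotics.IsBigO.of_bound (4 * R / r ^ 2)
      filter_upwards [ball_mem_nhds (0:E) hr] with h hh
      have hz : x + h ∈ ball x r := by simpa [dist_eq_norm] using hh
      have := hbound (x + h) hz
      simp only [add_sub_cancel_left, dist_self_add_left] at this
      rw [norm_pow, norm_norm]
      calc ‖L (x + h) - L x - A h‖ ≤ 4 * R * (‖h‖ / r) ^ 2 := this
        _ = 4 * R / r ^ 2 * ‖h‖ ^ 2 := by field_simp
    exact hO.trans_isLittleO (Asymptotics.isLittleO_norm_pow_id one_lt_two)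
  exact hderiv.differentiableAt.differentiableWithinAt

/-- Core lemma: a holomorphic self-map `Φ` whose conjugates by a sequence of holomorphic
self-maps `G k` are (eventually along an ultrafilter) a fixed self-map `Ψ`, and whose displacement
`‖Φ x - x‖` approaches its supremum `δ` along points `G k (y k)` with `y k` in a fixed compact set,
has `δ = 0`. -/
lemma displacement_zero [StrictConvexSpace ℝ E] {ι : Type*} (𝒰 : Ultrafilter ι) {U : Set E}
    (hUo : IsOpen U) (hUc : IsPreconnected U) {R : ℝ} (hUR : U ⊆ closedBall 0 R)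
    (Φ Ψ : E → E) (hΨd : DifferentiableOn ℂ Ψ U) (hΨ : MapsTo Ψ U U)
    (G : ι → E → E) (hGd : ∀ k, DifferentiableOn ℂ (G k) U) (hG : ∀ k, MapsTo (G k) U U)
    (hcomm : ∀ᶠ k in (𝒰 : Filter ι), ∀ x ∈ U, G k (Ψ x) = Φ (G k x))
    (K : Set E) (hK : IsCompact K) (hKU : K ⊆ U) (y : ι → E) (hy : ∀ k, y k ∈ K)
    (δ : ℝ) (hδ : ∀ x ∈ U, ‖Φ x - x‖ ≤ δ)
    (hsup : Tendsto (fun k => ‖Φ (G k (y k)) - G k (y k)‖) 𝒰 (𝓝 δ)) :
    δ = 0 := by
  have hmapsR : ∀ k, MapsTo (G k) U (closedBall 0 R) := fun k x hx => hUR (hG k hx)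
  obtain ⟨L, hLd, hLmaps, hLtend⟩ := exists_limit 𝒰 hUo G hGd hmapsR
  -- limit point of `y`
  have hmemK : K ∈ 𝒰.map y := by
    rw [Ultrafilter.mem_map]; exact Filter.univ_mem' hy
  obtain ⟨y₀, hy₀K, hy₀⟩ := hK.ultrafilter_le_nhds' _ hmemK
  have hytend : Tendsto y 𝒰 (𝓝 y₀) := hy₀
  have hy₀U : y₀ ∈ U := hKU hy₀K
  have hR : 0 ≤ R := by
    have := hUR hy₀U
    rw [mem_closedBall_zero_iff] at this
    exact (norm_nonneg _).trans this
  set v : E → E := fun z => L (Ψ z) - L z with hv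
  have hvd : DifferentiableOn ℂ v U := (hLd.comp hΨd hΨ).sub hLd
  have hvtend : ∀ z ∈ U, Tendsto (fun k => G k (Ψ z) - G k z) 𝒰 (𝓝 (v z)) := fun z hz =>
    (hLtend (Ψ z) (hΨ hz)).sub (hLtend z hz)
  have hvle : ∀ z ∈ U, ‖v z‖ ≤ δ := by
    intro z hz
    apply le_of_tendsto (hvtend z hz).norm
    filter_upwards [hcomm] with k hk
    rw [hk z hz]
    exact hδ _ (hG k hz)
  -- the value at `y₀`
  obtain ⟨r, hr, hball⟩ := Metric.isOpen_iff.mp hUo y₀ hy₀U
  have hwnorm : ∀ k, ∀ z ∈ U, ‖G k (Ψ z) - G k z‖ ≤ 2 * R := by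
    intro k z hz
    have h1 := hmapsR k (hΨ hz)
    have h2 := hmapsR k hz
    rw [mem_closedBall_zero_iff] at h1 h2
    calc ‖G k (Ψ z) - G k z‖ ≤ ‖G k (Ψ z)‖ + ‖G k z‖ := norm_sub_le _ _
      _ ≤ 2 * R := by linarith
  have hw : ∀ k, ∀ z ∈ ball y₀ r,
      ‖(G k (Ψ z) - G k z) - (G k (Ψ y₀) - G k y₀)‖ ≤ 4 * R / r * dist z y₀ := by
    intro k z hz
    have hd : DifferentiableOn ℂ (fun z => G k (Ψ z) - G k z) (ball y₀ r) :=
      (((hGd k).comp hΨd hΨ).sub (hGd k)).mono hball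
    have hm : MapsTo (fun z => G k (Ψ z) - G k z) (ball y₀ r)
        (closedBall (G k (Ψ y₀) - G k y₀) (4 * R)) := by
      intro w hw
      rw [mem_closedBall, dist_eq_norm]
      calc ‖(G k (Ψ w) - G k w) - (G k (Ψ y₀) - G k y₀)‖
          ≤ ‖G k (Ψ w) - G k w‖ + ‖G k (Ψ y₀) - G k y₀‖ := norm_sub_le _ _
        _ ≤ 4 * R := by linarith [hwnorm k w (hball hw), hwnorm k y₀ hy₀U]
    have := Complex.dist_le_div_mul_dist_of_mapsTo_ball hd hm hz
    rwa [dist_eq_norm] at this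
  have h1 : Tendsto (fun k => ‖G k (Ψ (y k)) - G k (y k)‖) 𝒰 (𝓝 δ) := by
    apply hsup.congr'
    filter_upwards [hcomm] with k hk
    rw [hk _ (hKU (hy k))]
  have h2 : Tendsto (fun k => ‖G k (Ψ y₀) - G k y₀‖) 𝒰 (𝓝 δ) := by
    have hdist : Tendsto (fun k => 4 * R / r * dist (y k) y₀) 𝒰 (𝓝 0) := by
      have := (tendsto_iff_dist_tendsto_zero.mp hytend).const_mul (4 * R / r)
      simpa using this
    have hdiff : Tendsto (fun k => ‖G k (Ψ (y k)) - G k (y k)‖ - ‖G k (Ψ y₀) - G k y₀‖) 𝒰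
        (𝓝 0) := by
      apply squeeze_zero_norm' _ hdist
      have hev : ∀ᶠ k in (𝒰 : Filter ι), y k ∈ ball y₀ r := hytend (ball_mem_nhds y₀ hr)
      filter_upwards [hev] with k hk
      rw [Real.norm_eq_abs]
      exact (abs_norm_sub_norm_le _ _).trans (hw k (y k) hk)
    simpa using h1.sub hdiff
  have h3 : ‖v y₀‖ = δ := tendsto_nhds_unique (hvtend y₀ hy₀U).norm h2
  have hmax : IsMaxOn (norm ∘ v) U y₀ := by
    intro z hz
    simp only [Set.mem_ofPred_eq, Function.comp]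
    rw [h3]
    exact hvle z hz
  have hconst := Complex.eqOn_of_isPreconnected_of_isMaxOn_norm hUc hUo hvd hy₀U hmax
  -- iterate
  have hiter : ∀ m : ℕ, Ψ^[m] y₀ ∈ U ∧ L (Ψ^[m] y₀) = L y₀ + (m : ℝ) • v y₀ := by
    intro m
    induction m with
    | zero => simp [hy₀U]
    | succ m ih =>
      obtain ⟨hmU, hmL⟩ := ih
      rw [Function.iterate_succ_apply']
      refine ⟨hΨ hmU, ?_⟩
      have h := hconst hmU
      simp only [Function.const] at h
      have h' : L (Ψ (Ψ^[m] y₀)) = v y₀ + L (Ψ^[m] y₀) := by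
        rw [← h]; simp only [hv]; abel
      rw [h', hmL]
      push_cast
      rw [add_smul, one_smul]
      abel
  by_contra hne
  have hδpos : 0 < δ := lt_of_le_of_ne (h3 ▸ norm_nonneg _) (Ne.symm hne)
  obtain ⟨m, hm⟩ := exists_nat_gt (2 * R / δ)
  obtain ⟨hmU, hmL⟩ := hiter m
  have hb1 := hLmaps hmU
  have hb2 := hLmaps hy₀U
  rw [mem_closedBall_zero_iff] at hb1 hb2
  have hnorm : ‖(m : ℝ) • v y₀‖ ≤ 2 * R := by
    have : (m : ℝ) • v y₀ = L (Ψ^[m] y₀) - L y₀ := by rw [hmL]; abel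
    rw [this]
    calc ‖L (Ψ^[m] y₀) - L y₀‖ ≤ ‖L (Ψ^[m] y₀)‖ + ‖L y₀‖ := norm_sub_le _ _
      _ ≤ 2 * R := by linarith
  rw [norm_smul, h3, Real.norm_eq_abs, abs_of_nonneg (Nat.cast_nonneg m)] at hnorm
  rw [div_lt_iff₀ hδpos] at hm
  linarith

/-- A self-map `f` of `U` is holomorphic if it is the restriction to `U` of a map `E → E`
that is complex differentiable on `U`. -/
def IsHolomorphicSelfMap (U : Set E) (f : U → U) : Prop :=
  ∃ F : E → E, DifferentiableOn ℂ F U ∧ ∀ x : U, F x = f x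

omit [FiniteDimensional ℂ E] in
lemma IsHolomorphicSelfMap.comp {U : Set E} {f g : U → U} (hf : IsHolomorphicSelfMap U f)
    (hg : IsHolomorphicSelfMap U g) : IsHolomorphicSelfMap U (f ∘ g) := by
  obtain ⟨F, hF, hFf⟩ := hf
  obtain ⟨G, hG, hGg⟩ := hg
  refine ⟨F ∘ G, hF.comp hG (fun x hx => ?_), fun x => ?_⟩
  · rw [hGg ⟨x, hx⟩]; exact (g ⟨x, hx⟩).2
  · simp only [Function.comp_apply, hGg x, hFf (g x)]

omit [FiniteDimensional ℂ E] in
lemma IsHolomorphicSelfMap.continuous {U : Set E} {f : U → U} (hf : IsHolomorphicSelfMap U f) :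
    Continuous f := by
  obtain ⟨F, hF, hFf⟩ := hf
  rw [continuous_induced_rng]
  have h := continuousOn_iff_continuous_domRestrict.mp hF.continuousOn
  convert h using 1
  funext x
  simp [hFf x]

/-- If the orbit space `U/Γ` is compact, there is a compact set `K ⊆ U` meeting every orbit. -/
lemma exists_compact_fundamental {U : Set E} (hUo : IsOpen U) (Γ : Subgroup (Equiv.Perm U))
    (hcont : ∀ γ ∈ Γ, Continuous (γ : U → U))
    [CompactSpace (MulAction.orbitRel.Quotient Γ U)] :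
    ∃ K : Set E, IsCompact K ∧ K ⊆ U ∧ ∀ x : U, ∃ γ ∈ Γ, ∃ k : U, (k : E) ∈ K ∧ γ k = x := by
  have : ProperSpace E := FiniteDimensional.proper_rclike ℂ E
  have : ContinuousConstSMul Γ U := ⟨fun γ => hcont γ.1 γ.2⟩
  have : LocallyCompactSpace U := hUo.locallyCompactSpace
  let π : U → MulAction.orbitRel.Quotient Γ U := Quotient.mk (MulAction.orbitRel Γ U)
  have hπ : IsOpenMap π := isOpenMap_quotient_mk'_mul
  choose Kc hKc hKn using fun x : U => exists_compact_mem_nhds x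
  obtain ⟨t, ht⟩ := isCompact_univ.elim_finite_subcover (fun x : U => π '' interior (Kc x))
    (fun x => hπ _ isOpen_interior) (fun q _ => by
      obtain ⟨x, rfl⟩ := Quotient.exists_rep q
      exact mem_iUnion.mpr ⟨x, mem_image_of_mem π (mem_interior_iff_mem_nhds.mpr (hKn x))⟩)
  refine ⟨Subtype.val '' (⋃ x ∈ t, Kc x),
    (t.isCompact_biUnion (fun x _ => hKc x)).image continuous_subtype_val, ?_, ?_⟩
  · rintro _ ⟨x, -, rfl⟩; exact x.2
  · intro x
    have hx := ht (mem_univ (π x))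
    simp only [mem_iUnion, mem_image] at hx
    obtain ⟨i, hi, k, hk, hkx⟩ := hx
    have hrel : k ∈ MulAction.orbit Γ x := by
      rw [← MulAction.orbitRel_apply]
      exact Quotient.exact hkx
    obtain ⟨γ, hγ⟩ := hrel
    refine ⟨(γ⁻¹ : Γ), (γ⁻¹ : Γ).2, k, ?_, ?_⟩
    · exact ⟨k, mem_biUnion hi (interior_subset hk), rfl⟩
    · have : γ • x = k := hγ
      rw [← this]
      change (γ⁻¹ : Γ) • (γ • x) = x
      rw [inv_smul_smul]

/-- Main theorem: for a bounded domain `U` with a cocompact group `Γ` of biholomorphisms,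
a holomorphic self-map of `U` with only finitely many `Γ`-conjugates is the identity. -/
theorem eq_id_of_finite_conj [StrictConvexSpace ℝ E] {U : Set E} (hUo : IsOpen U)
    (hUc : IsConnected U) (hUb : Bornology.IsBounded U)
    (Γ : Subgroup (Equiv.Perm U)) (hΓ : ∀ γ ∈ Γ, IsHolomorphicSelfMap U γ)
    [CompactSpace (MulAction.orbitRel.Quotient Γ U)]
    (φ : U → U) (hφ : IsHolomorphicSelfMap U φ)
    (hfin : {ψ : U → U | ∃ γ ∈ Γ, ψ = ⇑γ⁻¹ ∘ φ ∘ ⇑γ}.Finite) : φ = id := by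
  obtain ⟨K, hK, hKU, hcov⟩ :=
    exists_compact_fundamental hUo Γ (fun γ hγ => (hΓ γ hγ).continuous)
  obtain ⟨R, hR⟩ : ∃ R, U ⊆ closedBall 0 R := hUb.subset_closedBall 0
  have hφhol := hφ
  obtain ⟨Φ, hΦd, hΦ⟩ := hφ
  have hΦmaps : MapsTo Φ U U := fun z hz => by rw [hΦ ⟨z, hz⟩]; exact (φ ⟨z, hz⟩).2
  -- displacement set
  set S : Set ℝ := (fun x => ‖Φ x - x‖) '' U with hS
  have hSne : S.Nonempty := hUc.nonempty.image _
  have hSbdd : BddAbove S := by
    refine ⟨2 * R, ?_⟩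
    rintro _ ⟨x, hx, rfl⟩
    have h1 := hR (hΦmaps hx)
    have h2 := hR hx
    rw [mem_closedBall_zero_iff] at h1 h2
    calc ‖Φ x - x‖ ≤ ‖Φ x‖ + ‖x‖ := norm_sub_le _ _
      _ ≤ 2 * R := by linarith
  obtain ⟨u, -, hu, huS⟩ := exists_seq_tendsto_sSup hSne hSbdd
  choose x hxU hxu using huS
  have hdec : ∀ k, ∃ γ ∈ Γ, ∃ y : U, (y : E) ∈ K ∧ γ y = ⟨x k, hxU k⟩ :=
    fun k => hcov ⟨x k, hxU k⟩
  choose γ hγ y hyK hγy using hdec
  have hext : ∀ k, ∃ G : E → E, DifferentiableOn ℂ G U ∧ ∀ z : U, G z = γ k z :=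
    fun k => hΓ (γ k) (hγ k)
  choose G hGd hG using hext
  have hGmaps : ∀ k, MapsTo (G k) U U := fun k z hz => by
    rw [hG k ⟨z, hz⟩]; exact (γ k ⟨z, hz⟩).2
  let 𝒰 : Ultrafilter ℕ := Ultrafilter.of atTop
  have h𝒰 : (𝒰 : Filter ℕ) ≤ atTop := Ultrafilter.of_le atTop
  have hmem : {ψ : U → U | ∃ γ ∈ Γ, ψ = ⇑γ⁻¹ ∘ φ ∘ ⇑γ} ∈
      𝒰.map (fun k => ⇑(γ k)⁻¹ ∘ φ ∘ ⇑(γ k)) := by
    rw [Ultrafilter.mem_map]
    exact Filter.univ_mem' (fun k => ⟨γ k, hγ k, rfl⟩)
  obtain ⟨ψ, ⟨γ₀, hγ₀, hψ⟩, hpure⟩ := Ultrafilter.eq_pure_of_finite_mem hfin hmem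
  have hev : ∀ᶠ k in (𝒰 : Filter ℕ), ⇑(γ k)⁻¹ ∘ φ ∘ ⇑(γ k) = ψ := by
    have h1 : ({ψ} : Set (U → U)) ∈ 𝒰.map (fun k => ⇑(γ k)⁻¹ ∘ φ ∘ ⇑(γ k)) := by
      rw [hpure]; exact mem_pure.mpr rfl
    rw [Ultrafilter.mem_map] at h1
    exact h1
  have hψhol : IsHolomorphicSelfMap U ψ := by
    rw [hψ]
    exact ((hΓ _ (Γ.inv_mem hγ₀)).comp hφhol).comp (hΓ _ hγ₀)
  obtain ⟨Ψ, hΨd, hΨ⟩ := hψhol
  have hΨmaps : MapsTo Ψ U U := fun z hz => by rw [hΨ ⟨z, hz⟩]; exact (ψ ⟨z, hz⟩).2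
  have hcomm : ∀ᶠ k in (𝒰 : Filter ℕ), ∀ z ∈ U, G k (Ψ z) = Φ (G k z) := by
    filter_upwards [hev] with k hk z hz
    have e1 : Ψ z = ψ ⟨z, hz⟩ := hΨ ⟨z, hz⟩
    have e2 : G k (Ψ z) = γ k (ψ ⟨z, hz⟩) := by
      rw [e1]; exact hG k (ψ ⟨z, hz⟩)
    have e3 : G k z = γ k ⟨z, hz⟩ := hG k ⟨z, hz⟩
    have e4 : Φ (G k z) = φ (γ k ⟨z, hz⟩) := by
      rw [e3]; exact hΦ (γ k ⟨z, hz⟩)
    rw [e2, e4, ← hk]
    simp
  have hδ : ∀ z ∈ U, ‖Φ z - z‖ ≤ sSup S := fun z hz => le_csSup hSbdd ⟨z, hz, rfl⟩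
  have hsup : Tendsto (fun k => ‖Φ (G k (y k)) - G k (y k)‖) 𝒰 (𝓝 (sSup S)) := by
    have : (fun k => ‖Φ (G k (y k)) - G k (y k)‖) = u := by
      funext k
      rw [hG k (y k), hγy k]
      exact hxu k
    rw [this]
    exact hu.mono_left h𝒰
  have hzero := displacement_zero 𝒰 hUo hUc.isPreconnected hR Φ Ψ hΨd hΨmaps G hGd hGmaps hcomm
    K hK hKU (fun k => (y k : E)) hyK (sSup S) hδ hsup
  funext z
  apply Subtype.ext
  have h1 := hδ z z.2
  rw [hzero] at h1
  have h0 : Φ z - z = 0 := norm_le_zero_iff.mp h1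
  rw [← hΦ z]
  simpa [sub_eq_zero] using h0

end Vale.Agent.H74
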