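import Mathlib

/-!
# Normal families through ultrafilter limits

A uniformly bounded family of holomorphic maps on an open set of a finite-dimensional complex
normed space has, along any ultrafilter, a pointwise limit which is again holomorphic; the
derivatives converge to the derivative of the limit, and the convergence is uniform on compact
sets. Everything is derived from the Schwarz lemma (no Cauchy integrals).
-/

open Metric Set Filter Topology

namespace Vale.Agent.H74

variable {E F : Type*} [NormedAddCommGroup E] [NormedSpace ℂ E]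
  [NormedAddCommGroup F] [NormedSpace ℂ F]

/-- Lipschitz estimate on a ball from the Schwarz lemma. -/
lemma lipschitz_bound {G : E → F} {x z : E} {r R : ℝ}
    (hG : DifferentiableOn ℂ G (ball x r)) (hmaps : MapsTo G (ball x r) (closedBall 0 R))
    (hz : z ∈ ball x r) :
    ‖G z - G x‖ ≤ 2 * R / r * dist z x := by
  have hr : 0 < r := nonempty_ball.mp ⟨z, hz⟩
  have hx : x ∈ ball x r := mem_ball_self hr
  have hmaps2 : MapsTo G (ball x r) (closedBall (G x) (2 * R)) := by
    intro w hw
    have h1 := hmaps hw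
    have h2 := hmaps hx
    rw [mem_closedBall_zero_iff] at h1 h2
    rw [mem_closedBall, dist_eq_norm]
    calc ‖G w - G x‖ ≤ ‖G w‖ + ‖G x‖ := norm_sub_le _ _
      _ ≤ 2 * R := by linarith
  have := Complex.dist_le_div_mul_dist_of_mapsTo_ball hG hmaps2 hz
  rwa [dist_eq_norm] at this

/-- Uniform second-order Taylor estimate from the Schwarz lemma. -/
lemma taylor_bound2 {G : E → F} {x z : E} {r R : ℝ}
    (hG : DifferentiableOn ℂ G (ball x r)) (hmaps : MapsTo G (ball x r) (closedBall 0 R))
    (hz : z ∈ ball x r) :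
    ‖G z - G x - fderiv ℂ G x (z - x)‖ ≤ 4 * R * (dist z x / r) ^ 2 := by
  have hr : 0 < r := nonempty_ball.mp ⟨z, hz⟩
  have hx : x ∈ ball x r := mem_ball_self hr
  have hR : 0 ≤ R := by
    have := hmaps hx
    rw [mem_closedBall_zero_iff] at this
    exact (norm_nonneg _).trans this
  have hmaps2 : MapsTo G (ball x r) (closedBall (G x) (2 * R)) := by
    intro w hw
    have h1 := hmaps hw
    have h2 := hmaps hx
    rw [mem_closedBall_zero_iff] at h1 h2
    rw [mem_closedBall, dist_eq_norm]
    calc ‖G w - G x‖ ≤ ‖G w‖ + ‖G x‖ := norm_sub_le _ _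
      _ ≤ 2 * R := by linarith
  have hD : ‖fderiv ℂ G x‖ ≤ 2 * R / r := Complex.norm_fderiv_le_div_of_mapsTo_ball hG hmaps2 hr
  set D := fderiv ℂ G x with hDdef
  have hdiffAt : DifferentiableAt ℂ G x := hG.differentiableAt (ball_mem_nhds x hr)
  set f : E → F := fun w => G w - D (w - x) with hf
  have hfd : DifferentiableOn ℂ f (ball x r) := by
    apply hG.sub
    exact (D.differentiable.comp (differentiable_id.sub_const x)).differentiableOn
  have hfx : f x = G x := by simp [hf]
  have hfmaps : MapsTo f (ball x r) (closedBall (f x) (4 * R)) := by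
    intro w hw
    rw [mem_closedBall, dist_eq_norm, hfx]
    have h1 := hmaps2 hw
    rw [mem_closedBall, dist_eq_norm] at h1
    have h2 : ‖D (w - x)‖ ≤ 2 * R := by
      calc ‖D (w - x)‖ ≤ ‖D‖ * ‖w - x‖ := D.le_opNorm _
        _ ≤ (2 * R / r) * r := by
          apply mul_le_mul hD _ (norm_nonneg _) (by positivity)
          rw [← dist_eq_norm]; exact (mem_ball.mp hw).le
        _ = 2 * R := by field_simp
    calc ‖f w - G x‖ = ‖(G w - G x) - D (w - x)‖ := by simp only [hf]; congr 1; abel
      _ ≤ ‖G w - G x‖ + ‖D (w - x)‖ := norm_sub_le _ _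
      _ ≤ 4 * R := by linarith
  have hlittle : (fun w => f w - f x) =o[𝓝 x] (fun w => ‖w - x‖ ^ 1) := by
    have h := hdiffAt.hasFDerivAt
    rw [hasFDerivAt_iff_isLittleO] at h
    have h2 : (fun w => f w - f x) = fun w => G w - G x - D (w - x) := by
      funext w; simp only [hf, sub_self, map_zero, sub_zero]; abel
    rw [h2]
    simpa using h.norm_right
  have key := Complex.dist_le_mul_div_pow_of_mapsTo_ball_of_isLittleO hfd hfmaps hlittle hz
  rw [dist_eq_norm, hfx] at key
  have h3 : f z - G x = G z - G x - D (z - x) := by simp only [hf]; abel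
  rw [h3] at key
  simpa using key

variable [FiniteDimensional ℂ E] [FiniteDimensional ℂ F]

/-- A pointwise ultrafilter limit of a uniformly bounded family of holomorphic maps
is holomorphic, and the derivatives converge to the derivative of the limit. -/
lemma exists_limit_fderiv {ι : Type*} (𝒰 : Ultrafilter ι) {U : Set E} (hU : IsOpen U) {R : ℝ}
    (G : ι → E → F) (hG : ∀ i, DifferentiableOn ℂ (G i) U)
    (hmaps : ∀ i, MapsTo (G i) U (closedBall 0 R)) :
    ∃ L : E → F, DifferentiableOn ℂ L U ∧ MapsTo L U (closedBall 0 R) ∧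
      (∀ x ∈ U, Tendsto (fun i => G i x) 𝒰 (𝓝 (L x))) ∧
      (∀ x ∈ U, Tendsto (fun i => fderiv ℂ (G i) x) 𝒰 (𝓝 (fderiv ℂ L x))) := by
  have : ProperSpace F := FiniteDimensional.proper_rclike ℂ F
  have : ProperSpace (E →L[ℂ] F) := FiniteDimensional.proper_rclike ℂ (E →L[ℂ] F)
  have hpt : ∀ x ∈ U, ∃ l ∈ closedBall (0:F) R, Tendsto (fun i => G i x) 𝒰 (𝓝 l) := by
    intro x hx
    have hmem : closedBall (0:F) R ∈ 𝒰.map (fun i => G i x) := by
      rw [Ultrafilter.mem_map]
      exact Filter.univ_mem' (fun i => hmaps i hx)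
    obtain ⟨l, hl, hle⟩ := (isCompact_closedBall (0:F) R).ultrafilter_le_nhds' _ hmem
    exact ⟨l, hl, hle⟩
  choose! L hLmem hLtend using hpt
  have hkey : ∀ x ∈ U, ∃ A : E →L[ℂ] F, Tendsto (fun i => fderiv ℂ (G i) x) 𝒰 (𝓝 A) ∧
      HasFDerivAt L A x := by
    intro x hx
    obtain ⟨r, hr, hball⟩ := Metric.isOpen_iff.mp hU x hx
    have hxb : x ∈ ball x r := mem_ball_self hr
    have hRnonneg : 0 ≤ R := by
      have := hLmem x hx
      rw [mem_closedBall_zero_iff] at this
      exact (norm_nonneg _).trans this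
    have hDbound : ∀ i, fderiv ℂ (G i) x ∈ closedBall (0 : E →L[ℂ] F) (2 * R / r) := by
      intro i
      rw [mem_closedBall_zero_iff]
      apply Complex.norm_fderiv_le_div_of_mapsTo_ball ((hG i).mono hball) _ hr
      intro w hw
      have h1 := hmaps i (hball hw)
      have h2 := hmaps i hx
      rw [mem_closedBall_zero_iff] at h1 h2
      rw [mem_closedBall, dist_eq_norm]
      calc ‖G i w - G i x‖ ≤ ‖G i w‖ + ‖G i x‖ := norm_sub_le _ _
        _ ≤ 2 * R := by linarith
    have hmemD : closedBall (0 : E →L[ℂ] F) (2 * R / r) ∈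
        𝒰.map (fun i => fderiv ℂ (G i) x) := by
      rw [Ultrafilter.mem_map]
      exact Filter.univ_mem' hDbound
    obtain ⟨A, -, hAtend⟩ :=
      (isCompact_closedBall (0 : E →L[ℂ] F) (2 * R / r)).ultrafilter_le_nhds' _ hmemD
    have hAtend' : Tendsto (fun i => fderiv ℂ (G i) x) 𝒰 (𝓝 A) := hAtend
    refine ⟨A, hAtend', ?_⟩
    have hbound : ∀ z ∈ ball x r, ‖L z - L x - A (z - x)‖ ≤ 4 * R * (dist z x / r) ^ 2 := by
      intro z hz
      have ht : Tendsto (fun i => ‖G i z - G i x - fderiv ℂ (G i) x (z - x)‖) 𝒰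
          (𝓝 ‖L z - L x - A (z - x)‖) := by
        apply Tendsto.norm
        apply Tendsto.sub (Tendsto.sub (hLtend z (hball hz)) (hLtend x hx))
        exact ((ContinuousLinearMap.apply ℂ F (z - x)).continuous.tendsto A).comp hAtend'
      exact le_of_tendsto' ht
        (fun i => taylor_bound2 ((hG i).mono hball) ((hmaps i).mono_left hball) hz)
    rw [hasFDerivAt_iff_isLittleO_nhds_zero]
    have hO : (fun h => L (x + h) - L x - A h) =O[𝓝 0] fun h : E => ‖h‖ ^ 2 := by
      apply Asymptotics.IsBigO.of_bound (4 * R / r ^ 2)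
      filter_upwards [ball_mem_nhds (0:E) hr] with h hh
      have hz : x + h ∈ ball x r := by simpa [dist_eq_norm] using hh
      have := hbound (x + h) hz
      simp only [add_sub_cancel_left, dist_self_add_left] at this
      rw [norm_pow, norm_norm]
      calc ‖L (x + h) - L x - A h‖ ≤ 4 * R * (‖h‖ / r) ^ 2 := this
        _ = 4 * R / r ^ 2 * ‖h‖ ^ 2 := by field_simp
    exact hO.trans_isLittleO (Asymptotics.isLittleO_norm_pow_id one_lt_two)
  refine ⟨L, ?_, fun x hx => hLmem x hx, hLtend, ?_⟩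
  · intro x hx
    obtain ⟨A, -, hA⟩ := hkey x hx
    exact hA.differentiableAt.differentiableWithinAt
  · intro x hx
    obtain ⟨A, hAt, hA⟩ := hkey x hx
    rw [hA.fderiv]
    exact hAt

omit [FiniteDimensional ℂ E] [FiniteDimensional ℂ F] in
/-- Pointwise convergence along a filter of a uniformly bounded family of holomorphic maps to a
holomorphic map with the same bound is uniform on compact sets. -/
lemma eventually_forall_mem_compact_lt {ι : Type*} (𝒰 : Filter ι) {U : Set E} (hU : IsOpen U)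
    {R : ℝ} (G : ι → E → F) (hG : ∀ i, DifferentiableOn ℂ (G i) U)
    (hmaps : ∀ i, MapsTo (G i) U (closedBall 0 R)) (L : E → F) (hL : DifferentiableOn ℂ L U)
    (hLmaps : MapsTo L U (closedBall 0 R))
    (hLtend : ∀ x ∈ U, Tendsto (fun i => G i x) 𝒰 (𝓝 (L x)))
    {K : Set E} (hK : IsCompact K) (hKU : K ⊆ U) {ε : ℝ} (hε : 0 < ε) :
    ∀ᶠ i in 𝒰, ∀ z ∈ K, ‖G i z - L z‖ < ε := by
  rcases K.eq_empty_or_nonempty with hKe | hKne
  · simp [hKe]
  obtain ⟨x₀, hx₀⟩ := hKne
  have hR : 0 ≤ R := by
    have := hLmaps (hKU hx₀)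
    rw [mem_closedBall_zero_iff] at this
    exact (norm_nonneg _).trans this
  -- radii
  have hrad : ∀ x ∈ U, ∃ s > 0, ball x s ⊆ U ∧ ∀ i, ∀ z ∈ ball x s,
      ‖G i z - G i x‖ ≤ ε / 3 ∧ ‖L z - L x‖ ≤ ε / 3 := by
    intro x hx
    obtain ⟨r, hr, hball⟩ := Metric.isOpen_iff.mp hU x hx
    refine ⟨min r (ε * r / (6 * R + 1)), lt_min hr (by positivity), ?_, ?_⟩
    · exact (ball_subset_ball (min_le_left _ _)).trans hball
    · intro i z hz
      have hz1 : z ∈ ball x r := ball_subset_ball (min_le_left _ _) hz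
      have hz2 : dist z x < ε * r / (6 * R + 1) := lt_of_lt_of_le (mem_ball.mp hz) (min_le_right _ _)
      have hb : 2 * R / r * dist z x ≤ ε / 3 := by
        have h1 : 2 * R / r * dist z x ≤ 2 * R / r * (ε * r / (6 * R + 1)) :=
          mul_le_mul_of_nonneg_left hz2.le (by positivity)
        have h2 : 2 * R / r * (ε * r / (6 * R + 1)) = ε / 3 * (6 * R / (6 * R + 1)) := by
          field_simp
          ring
        have h3 : 6 * R / (6 * R + 1) ≤ 1 := by
          rw [div_le_one (by positivity)]; linarith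
        calc 2 * R / r * dist z x ≤ ε / 3 * (6 * R / (6 * R + 1)) := h2 ▸ h1
          _ ≤ ε / 3 * 1 := mul_le_mul_of_nonneg_left h3 (by positivity)
          _ = ε / 3 := mul_one _
      exact ⟨(lipschitz_bound ((hG i).mono hball) ((hmaps i).mono_left hball) hz1).trans hb,
        (lipschitz_bound (hL.mono hball) (hLmaps.mono_left hball) hz1).trans hb⟩
  choose! s hs hsU hsb using hrad
  obtain ⟨t, htK, htc⟩ := hK.elim_nhds_subcover (fun x => ball x (s x))
    (fun x hx => ball_mem_nhds x (hs x (hKU hx)))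
  have hev : ∀ᶠ i in 𝒰, ∀ x ∈ t, ‖G i x - L x‖ < ε / 3 := by
    rw [Filter.eventually_all_finset]
    intro x hx
    have h1 := hLtend x (hKU (htK x hx))
    rw [tendsto_iff_norm_sub_tendsto_zero] at h1
    exact h1.eventually (gt_mem_nhds (by positivity))
  filter_upwards [hev] with i hi z hz
  obtain ⟨x, hxt, hzx⟩ := mem_iUnion₂.mp (htc hz)
  have hxU : x ∈ U := hKU (htK x hxt)
  obtain ⟨h1, h2⟩ := hsb x hxU i z hzx
  have h3 := hi x hxt
  calc ‖G i z - L z‖ = ‖(G i z - G i x) + (G i x - L x) - (L z - L x)‖ := by congr 1; abel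
    _ ≤ ‖(G i z - G i x) + (G i x - L x)‖ + ‖L z - L x‖ := norm_sub_le _ _
    _ ≤ ‖G i z - G i x‖ + ‖G i x - L x‖ + ‖L z - L x‖ := by
      gcongr; exact norm_add_le _ _
    _ < ε / 3 + ε / 3 + ε / 3 := by linarith
    _ = ε := by ring

end Vale.Agent.H74
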