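import Mathlib

/-!
# Local structure of a plane open set whose boundary lies in a curve

Real-variable and topological lemmas: a Rolle-type uniqueness lemma for zeros of finite order,
simple connectivity of one side of a graph inside a box, and the local structure theorem
`Vale.Agent.H74.local_structure`.
-/

open Set Filter Topology Metric Complex

namespace Vale.Agent.H74

/-- If `φ 0` vanishes to order at least `m` at `t₀` (with `φ (j+1)` the derivative of `φ j`) and
`φ m` has no zero on the interval `J`, then `t₀` is the only possible zero of `φ 0` on `J`. -/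
lemma rolle_order (m : ℕ) : ∀ (φ : ℕ → ℝ → ℝ), (∀ j t, HasDerivAt (φ j) (φ (j + 1) t) t) →
    ∀ (J : Set ℝ), J.OrdConnected → ∀ t₀ ∈ J, (∀ j < m, φ j t₀ = 0) → (∀ t ∈ J, φ m t ≠ 0) →
    ∀ t ∈ J, t ≠ t₀ → φ 0 t ≠ 0 := by
  induction m with
  | zero => intro φ _ J _ t₀ _ _ h t ht _; exact h t ht
  | succ m ih =>
    intro φ hφ J hJ t₀ ht₀ hz hnz t ht hne h0
    have ih' := ih (fun j => φ (j + 1)) (fun j t => hφ (j + 1) t) J hJ t₀ ht₀
      (fun j hj => hz (j + 1) (by omega)) hnz
    have hz0 : φ 0 t₀ = 0 := hz 0 (by omega)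
    rcases lt_or_gt_of_ne hne with hlt | hlt
    · obtain ⟨c, hc, hc0⟩ := exists_hasDerivAt_eq_zero hlt
        (fun s _ => (hφ 0 s).continuousAt.continuousWithinAt) (by rw [h0, hz0])
        (fun s _ => hφ 0 s)
      exact ih' c (hJ.out ht ht₀ ⟨hc.1.le, hc.2.le⟩) hc.2.ne hc0
    · obtain ⟨c, hc, hc0⟩ := exists_hasDerivAt_eq_zero hlt
        (fun s _ => (hφ 0 s).continuousAt.continuousWithinAt) (by rw [h0, hz0])
        (fun s _ => hφ 0 s)
      exact ih' c (hJ.out ht₀ ht ⟨hc.1.le, hc.2.le⟩) hc.1.ne' hc0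

/-- Strict monotonicity along a vertical segment on which the vertical derivative is positive. -/
lemma strictMonoOn_vertical (g g' : ℂ → ℝ)
    (hd : ∀ (x t : ℝ), HasDerivAt (fun s : ℝ => g (x + s * I)) (g' (x + t * I)) t)
    (x c d : ℝ) (hpos : ∀ t ∈ Icc c d, 0 < g' (x + t * I)) :
    StrictMonoOn (fun t : ℝ => g (x + t * I)) (Icc c d) := by
  refine strictMonoOn_of_deriv_pos (convex_Icc c d)
    (fun t _ => (hd x t).continuousAt.continuousWithinAt) (fun t ht => ?_)
  rw [(hd x t).deriv]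
  exact hpos t (interior_subset ht)

/-- A convex combination of two points of an open interval stays in it. -/
lemma abs_combo_lt {c r u v θ : ℝ} (hu : |u - c| < r) (hv : |v - c| < r) (h0 : 0 ≤ θ)
    (h1 : θ ≤ 1) : |((1 - θ) * u + θ * v) - c| < r := by
  have e : (1 - θ) * u + θ * v - c = (1 - θ) * (u - c) + θ * (v - c) := by ring
  rw [e]
  calc |(1 - θ) * (u - c) + θ * (v - c)| ≤ |(1 - θ) * (u - c)| + |θ * (v - c)| := abs_add_le _ _
    _ = (1 - θ) * |u - c| + θ * |v - c| := by
      rw [abs_mul, abs_mul, abs_of_nonneg h0, abs_of_nonneg (sub_nonneg.2 h1)]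
    _ < r := by
      rcases eq_or_lt_of_le h0 with h | h
      · subst h; simpa using hu
      · nlinarith [mul_lt_mul_of_pos_left hv h,
          mul_le_mul_of_nonneg_left hu.le (sub_nonneg.2 h1)]

/-- One side of a graph-like curve in a box is simply connected: the set of points of the box
where `h > 0` is contractible as soon as it contains a horizontal segment at height `yt` and is
vertically convex towards that height. -/
lemma isSimplyConnected_side {h : ℂ → ℝ} {x₁ y₁ a b yt : ℝ} (ha : 0 < a)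
    (hyt : |yt - y₁| < b)
    (h1 : ∀ x : ℝ, |x - x₁| < a → 0 < h (x + yt * I))
    (h2 : ∀ x y : ℝ, |x - x₁| < a → |y - y₁| < b → 0 < h (x + y * I) →
      ∀ θ : ℝ, 0 ≤ θ → θ ≤ 1 → 0 < h (x + ((1 - θ) * y + θ * yt : ℝ) * I)) :
    IsSimplyConnected {z : ℂ | |z.re - x₁| < a ∧ |z.im - y₁| < b ∧ 0 < h z} := by
  set W : Set ℂ := {z : ℂ | |z.re - x₁| < a ∧ |z.im - y₁| < b ∧ 0 < h z} with hW
  have hw₀ : ((x₁ : ℂ) + yt * I) ∈ W := by
    refine ⟨by simp [ha], by simpa using hyt, h1 x₁ (by simp [ha])⟩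
  have key : ∀ (s : ℝ) (z : ℂ), z ∈ W → 0 ≤ s → s ≤ 1 →
      ((((1 - max (2 * s - 1) 0) * z.re + max (2 * s - 1) 0 * x₁ : ℝ) : ℂ)
        + (((1 - min (2 * s) 1) * z.im + min (2 * s) 1 * yt : ℝ) : ℂ) * I) ∈ W := by
    intro s z hz hs0 hs1
    obtain ⟨hz1, hz2, hz3⟩ := hz
    have hconv : ∀ (c u v θ : ℝ), |u - c| < b → |v - c| < b → 0 ≤ θ → θ ≤ 1 →
        |((1 - θ) * u + θ * v) - c| < b := fun c u v θ hu hv h0 h1 => abs_combo_lt hu hv h0 h1
    have hconv' : ∀ (c u v θ : ℝ), |u - c| < a → |v - c| < a → 0 ≤ θ → θ ≤ 1 →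
        |((1 - θ) * u + θ * v) - c| < a := fun c u v θ hu hv h0 h1 => abs_combo_lt hu hv h0 h1
    rcases le_total s (1 / 2) with hs | hs
    · have e1 : max (2 * s - 1) 0 = 0 := max_eq_right (by linarith)
      have e2 : min (2 * s) 1 = 2 * s := min_eq_left (by linarith)
      rw [e1, e2]
      have hz3' : 0 < h ((z.re : ℂ) + (z.im : ℂ) * I) := by rwa [Complex.re_add_im]
      refine ⟨by simpa using hz1, ?_, ?_⟩
      · simpa using hconv y₁ z.im yt (2 * s) hz2 hyt (by linarith) (by linarith)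
      · have := h2 z.re z.im hz1 hz2 hz3' (2 * s) (by linarith) (by linarith)
        simpa using this
    · have e1 : max (2 * s - 1) 0 = 2 * s - 1 := max_eq_left (by linarith)
      have e2 : min (2 * s) 1 = 1 := min_eq_right (by linarith)
      rw [e1, e2]
      have hx : |((1 - (2 * s - 1)) * z.re + (2 * s - 1) * x₁) - x₁| < a :=
        hconv' x₁ z.re x₁ (2 * s - 1) hz1 (by simp [ha]) (by linarith) (by linarith)
      refine ⟨by simpa using hx, by simpa using hyt, ?_⟩
      have := h1 _ hx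
      simpa using this
  have : ContractibleSpace W := by
    refine (contractible_iff_id_nullhomotopic W).2 ⟨⟨_, hw₀⟩,
      ⟨⟨⟨fun q => ⟨_, key q.1.1 q.2.1 q.2.2 q.1.2.1 q.1.2.2⟩, ?_⟩, fun z => ?_, fun z => ?_⟩⟩⟩
    · refine Continuous.subtype_mk ?_ _
      fun_prop
    · apply Subtype.ext
      simp [Complex.re_add_im]
    · apply Subtype.ext
      simp
      ring
  exact SimplyConnectedSpace.ofContractible W

/-- A box around a point `p` with `g p = 0` at which the vertical derivative `g'` is positive: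
`g'` is positive on the box, `g` is positive on the segment at height `p.im + b` and negative on
the segment at height `p.im - b`. -/
lemma exists_box (g g' : ℂ → ℝ) (hg : Continuous g) (hg' : Continuous g')
    (hd : ∀ (x t : ℝ), HasDerivAt (fun s : ℝ => g (x + s * I)) (g' (x + t * I)) t)
    (p : ℂ) (hgp : g p = 0) (hp : 0 < g' p) :
    ∃ a b : ℝ, 0 < a ∧ 0 < b ∧
      (∀ z : ℂ, |z.re - p.re| < a → |z.im - p.im| ≤ 2 * b → 0 < g' z) ∧
      (∀ x : ℝ, |x - p.re| < a → 0 < g (x + ((p.im + b : ℝ) : ℂ) * I)) ∧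
      (∀ x : ℝ, |x - p.re| < a → g (x + ((p.im - b : ℝ) : ℂ) * I) < 0) := by
  obtain ⟨δ, hδ, hδg⟩ :=
    Metric.eventually_nhds_iff.1 (hg'.continuousAt.eventually (lt_mem_nhds hp))
  have hF : ∀ z : ℂ, |z.re - p.re| < δ / 2 → |z.im - p.im| ≤ δ / 2 → 0 < g' z := by
    intro z h1 h2
    apply hδg
    rw [dist_eq_norm]
    calc ‖z - p‖ ≤ |(z - p).re| + |(z - p).im| := Complex.norm_le_abs_re_add_abs_im _
      _ < δ := by simp only [Complex.sub_re, Complex.sub_im]; linarith
  have hmono := strictMonoOn_vertical g g' hd p.re (p.im - δ / 2) (p.im + δ / 2)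
    (fun t ht => hF _ (by simp [hδ]) (by
      simp only [add_im, ofReal_im, mul_im, ofReal_re, I_im, mul_one, I_re, mul_zero, add_zero,
        zero_add]
      rw [abs_le]; constructor <;> linarith [ht.1, ht.2]))
  have hp' : g ((p.re : ℂ) + (p.im : ℂ) * I) = 0 := by rw [Complex.re_add_im]; exact hgp
  have htop : 0 < g ((p.re : ℂ) + ((p.im + δ / 4 : ℝ) : ℂ) * I) := by
    have := hmono (a := p.im) (b := p.im + δ / 4) ⟨by linarith, by linarith⟩
      ⟨by linarith, by linarith⟩ (by linarith)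
    simp only at this
    rw [hp'] at this; exact this
  have hbot : g ((p.re : ℂ) + ((p.im - δ / 4 : ℝ) : ℂ) * I) < 0 := by
    have := hmono (a := p.im - δ / 4) (b := p.im) ⟨by linarith, by linarith⟩
      ⟨by linarith, by linarith⟩ (by linarith)
    simp only at this
    rw [hp'] at this; exact this
  have c1 : Continuous (fun x : ℝ => g ((x : ℂ) + ((p.im + δ / 4 : ℝ) : ℂ) * I)) := by fun_prop
  obtain ⟨a₁, ha₁, h₁⟩ :=
    Metric.eventually_nhds_iff.1 (c1.continuousAt.eventually (lt_mem_nhds htop))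
  have c2 : Continuous (fun x : ℝ => g ((x : ℂ) + ((p.im - δ / 4 : ℝ) : ℂ) * I)) := by fun_prop
  obtain ⟨a₂, ha₂, h₂⟩ :=
    Metric.eventually_nhds_iff.1 (c2.continuousAt.eventually (gt_mem_nhds hbot))
  refine ⟨min (δ / 2) (min a₁ a₂), δ / 4, by positivity, by positivity, ?_, ?_, ?_⟩
  · intro z h1 h2
    exact hF z (lt_of_lt_of_le h1 (min_le_left _ _)) (by linarith)
  · intro x hx
    exact h₁ (by
      rw [Real.dist_eq]
      exact lt_of_lt_of_le hx ((min_le_right _ _).trans (min_le_left _ _)))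
  · intro x hx
    exact h₂ (by
      rw [Real.dist_eq]
      exact lt_of_lt_of_le hx ((min_le_right _ _).trans (min_le_right _ _)))

/-- Core of the local structure theorem: at a point `p` of `closure U` outside
`interior (closure U)` where `g` vanishes on that set, the vertical derivative `g'` is positive
at `p`, and vertical lines meet the frontier of `U` at most once near `p`, the set `U` coincides
near `p` with a simply connected open set. -/
lemma local_core {U : Set ℂ} (hUo : IsOpen U) (g g' : ℂ → ℝ) (hg : Continuous g)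
    (hg' : Continuous g')
    (hd : ∀ (x t : ℝ), HasDerivAt (fun s : ℝ => g (x + s * I)) (g' (x + t * I)) t)
    (hB : ∀ z ∈ closure U, z ∉ interior (closure U) → g z = 0)
    (p : ℂ) (hpC : p ∈ closure U) (hpI : p ∉ interior (closure U)) (hp : 0 < g' p)
    (hR : ∀ (x : ℝ) (J : Set ℝ), J.OrdConnected → ∀ t₀ ∈ J,
      ((x : ℂ) + (t₀ : ℂ) * I) ∈ closure U → ((x : ℂ) + (t₀ : ℂ) * I) ∉ interior (closure U) →
      (∀ t ∈ J, g' ((x : ℂ) + (t : ℂ) * I) ≠ 0) →
      ∀ t ∈ J, ((x : ℂ) + (t : ℂ) * I) ∈ frontier U → t = t₀) :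
    ∃ ρ > 0, ∃ W : Set ℂ, IsOpen W ∧ IsSimplyConnected W ∧ W ⊆ U ∧ U ∩ ball p ρ ⊆ W := by
  obtain ⟨a, b, ha, hb, hpos, htop, hbot⟩ := exists_box g g' hg hg' hd p (hB p hpC hpI) hp
  have hmono : ∀ x : ℝ, |x - p.re| < a →
      StrictMonoOn (fun t : ℝ => g (x + t * I)) (Icc (p.im - 2 * b) (p.im + 2 * b)) := by
    intro x hx
    refine strictMonoOn_vertical g g' hd x _ _ (fun t ht => hpos _ (by simpa using hx) ?_)
    simp only [add_im, ofReal_im, mul_im, ofReal_re, I_im, mul_one, I_re, mul_zero, add_zero,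
      zero_add]
    rw [abs_le]; constructor <;> linarith [ht.1, ht.2]
  have hyI : ∀ y : ℝ, |y - p.im| < 2 * b → y ∈ Icc (p.im - 2 * b) (p.im + 2 * b) := by
    intro y hy
    rw [abs_lt] at hy
    exact ⟨by linarith, by linarith⟩
  set N : Set ℂ := {z | |z.re - p.re| < a ∧ |z.im - p.im| < 2 * b} with hN
  set Sp : Set ℂ := {z | |z.re - p.re| < a ∧ |z.im - p.im| < 2 * b ∧ 0 < g z} with hSp
  set Sm : Set ℂ := {z | |z.re - p.re| < a ∧ |z.im - p.im| < 2 * b ∧ 0 < -g z} with hSm
  have hc1 : Continuous (fun z : ℂ => |z.re - p.re|) := by fun_prop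
  have hc2 : Continuous (fun z : ℂ => |z.im - p.im|) := by fun_prop
  have hNo : IsOpen N :=
    (isOpen_lt hc1 continuous_const).and (isOpen_lt hc2 continuous_const)
  have hSpo : IsOpen Sp :=
    (isOpen_lt hc1 continuous_const).and
      ((isOpen_lt hc2 continuous_const).and (isOpen_lt continuous_const hg))
  have hSmo : IsOpen Sm :=
    (isOpen_lt hc1 continuous_const).and
      ((isOpen_lt hc2 continuous_const).and (isOpen_lt continuous_const hg.neg))
  have hSpc : IsSimplyConnected Sp := by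
    refine isSimplyConnected_side (h := g) (x₁ := p.re) (y₁ := p.im) (a := a) (b := 2 * b)
      (yt := p.im + b) ha (by rw [abs_lt]; constructor <;> linarith) htop ?_
    intro x y hx hy hpos' θ h0 h1
    have hm := (hmono x hx).monotoneOn
    have hy' := hyI y hy
    have ht' : p.im + b ∈ Icc (p.im - 2 * b) (p.im + 2 * b) := ⟨by linarith, by linarith⟩
    have hθ' : (1 - θ) * y + θ * (p.im + b) ∈ Icc (p.im - 2 * b) (p.im + 2 * b) :=
      (convex_Icc _ _) hy' ht' (sub_nonneg.2 h1) h0 (by ring)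
    rcases le_total y (p.im + b) with h | h
    · have hle : y ≤ (1 - θ) * y + θ * (p.im + b) := by nlinarith
      exact lt_of_lt_of_le hpos' (hm hy' hθ' hle)
    · have hle : p.im + b ≤ (1 - θ) * y + θ * (p.im + b) := by nlinarith
      exact lt_of_lt_of_le (htop x hx) (hm ht' hθ' hle)
  have hSmc : IsSimplyConnected Sm := by
    refine isSimplyConnected_side (h := fun z => -g z) (x₁ := p.re) (y₁ := p.im) (a := a)
      (b := 2 * b) (yt := p.im - b) ha (by rw [abs_lt]; constructor <;> linarith)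
      (fun x hx => by simpa using hbot x hx) ?_
    intro x y hx hy hpos' θ h0 h1
    have hm := (hmono x hx).monotoneOn
    have hy' := hyI y hy
    have ht' : p.im - b ∈ Icc (p.im - 2 * b) (p.im + 2 * b) := ⟨by linarith, by linarith⟩
    have hθ' : (1 - θ) * y + θ * (p.im - b) ∈ Icc (p.im - 2 * b) (p.im + 2 * b) :=
      (convex_Icc _ _) hy' ht' (sub_nonneg.2 h1) h0 (by ring)
    simp only [Left.neg_pos_iff] at hpos' ⊢
    rcases le_total y (p.im - b) with h | h
    · have hle : (1 - θ) * y + θ * (p.im - b) ≤ p.im - b := by nlinarith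
      exact lt_of_le_of_lt (hm hθ' ht' hle) (hbot x hx)
    · have hle : (1 - θ) * y + θ * (p.im - b) ≤ y := by nlinarith
      exact lt_of_le_of_lt (hm hθ' hy' hle) hpos'
  have hcl : ∀ z ∈ N, g z = 0 → z ∈ closure Sp ∧ z ∈ closure Sm := by
    intro z hz hgz
    obtain ⟨hz1, hz2⟩ := hz
    have hz0 : g ((z.re : ℂ) + (z.im : ℂ) * I) = 0 := by rw [Complex.re_add_im]; exact hgz
    have hzI := hyI z.im hz2
    have hm := hmono z.re hz1
    have habs := abs_lt.1 hz2
    have hle := le_abs_self (z.im - p.im)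
    have hle' := neg_abs_le (z.im - p.im)
    constructor
    · rw [Metric.mem_closure_iff]
      intro ε hε
      set η := min (ε / 2) ((2 * b - |z.im - p.im|) / 2) with hη
      have hη0 : 0 < η := lt_min (by linarith) (by linarith)
      have hη1 : η ≤ ε / 2 := min_le_left _ _
      have hη2 : η ≤ (2 * b - |z.im - p.im|) / 2 := min_le_right _ _
      refine ⟨(z.re : ℂ) + ((z.im + η : ℝ) : ℂ) * I, ⟨by simpa using hz1, ?_, ?_⟩, ?_⟩
      · simp only [add_im, ofReal_im, mul_im, ofReal_re, I_im, mul_one, I_re, mul_zero, add_zero,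
          zero_add]
        rw [abs_lt]; constructor <;> linarith
      · have := hm hzI ⟨by linarith, by linarith⟩ (show z.im < z.im + η by linarith)
        simp only at this
        rw [hz0] at this; exact this
      · rw [dist_eq_norm]
        calc ‖z - ((z.re : ℂ) + ((z.im + η : ℝ) : ℂ) * I)‖
            ≤ |(z - ((z.re : ℂ) + ((z.im + η : ℝ) : ℂ) * I)).re|
              + |(z - ((z.re : ℂ) + ((z.im + η : ℝ) : ℂ) * I)).im| :=
              Complex.norm_le_abs_re_add_abs_im _
          _ = η := by simp [abs_of_pos hη0]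
          _ < ε := by linarith
    · rw [Metric.mem_closure_iff]
      intro ε hε
      set η := min (ε / 2) ((2 * b - |z.im - p.im|) / 2) with hη
      have hη0 : 0 < η := lt_min (by linarith) (by linarith)
      have hη1 : η ≤ ε / 2 := min_le_left _ _
      have hη2 : η ≤ (2 * b - |z.im - p.im|) / 2 := min_le_right _ _
      refine ⟨(z.re : ℂ) + ((z.im - η : ℝ) : ℂ) * I, ⟨by simpa using hz1, ?_, ?_⟩, ?_⟩
      · simp only [add_im, ofReal_im, mul_im, ofReal_re, I_im, mul_one, I_re, mul_zero, add_zero,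
          zero_add]
        rw [abs_lt]; constructor <;> linarith
      · have := hm ⟨by linarith, by linarith⟩ hzI (show z.im - η < z.im by linarith)
        simp only at this
        rw [hz0] at this
        simpa using this
      · rw [dist_eq_norm]
        calc ‖z - ((z.re : ℂ) + ((z.im - η : ℝ) : ℂ) * I)‖
            ≤ |(z - ((z.re : ℂ) + ((z.im - η : ℝ) : ℂ) * I)).re|
              + |(z - ((z.re : ℂ) + ((z.im - η : ℝ) : ℂ) * I)).im| :=
              Complex.norm_le_abs_re_add_abs_im _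
          _ = η := by simp [abs_of_pos hη0]
          _ < ε := by linarith
  have hdich : ∀ S : Set ℂ, IsPreconnected S → (∀ z ∈ S, g z ≠ 0) →
      S ⊆ (closure U)ᶜ ∨ S ⊆ interior (closure U) := by
    intro S hS hne
    refine hS.subset_or_subset isClosed_closure.isOpen_compl isOpen_interior ?_ ?_
    · exact disjoint_left.2 (fun z hz hz' => hz (interior_subset hz'))
    · intro z hz
      by_cases h1 : z ∈ closure U
      · by_cases h2 : z ∈ interior (closure U)
        · exact Or.inr h2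
        · exact absurd (hB z h1 h2) (hne z hz)
      · exact Or.inl h1
  have key : ∀ Sin Sout : Set ℂ, IsOpen Sin → IsSimplyConnected Sin →
      Sin ⊆ interior (closure U) → Sout ⊆ (closure U)ᶜ →
      (∀ z ∈ N, g z = 0 → z ∈ closure Sin ∧ z ∈ closure Sout) →
      (∀ z ∈ N, g z ≠ 0 → z ∈ Sin ∨ z ∈ Sout) →
      (∀ z ∈ Sin, z ∈ N ∧ g z ≠ 0) →
      ∃ ρ > 0, ∃ W : Set ℂ, IsOpen W ∧ IsSimplyConnected W ∧ W ⊆ U ∧ U ∩ ball p ρ ⊆ W := by
    intro Sin Sout hSo hSc hin hout hcl' hor hSN
    have hc : ∀ z ∈ N, g z = 0 → z ∈ closure U ∧ z ∉ interior (closure U) := by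
      intro z hz hgz
      obtain ⟨h1, h2⟩ := hcl' z hz hgz
      refine ⟨closure_minimal (hin.trans interior_subset) isClosed_closure h1, fun hzi => ?_⟩
      obtain ⟨w, hw1, hw2⟩ := mem_closure_iff.1 h2 _ isOpen_interior hzi
      exact hout hw2 (interior_subset hw1)
    have hd' : ∀ z ∈ N, z ∈ frontier U → g z = 0 := by
      intro z hz hzf
      obtain ⟨hz1, hz2⟩ := hz
      have hcont : ContinuousOn (fun t : ℝ => g ((z.re : ℂ) + (t : ℂ) * I))
          (Icc (p.im - b) (p.im + b)) := (by fun_prop : Continuous _).continuousOn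
      obtain ⟨t₀, ht₀, hgt₀⟩ := intermediate_value_Icc (by linarith) hcont
        (show (0 : ℝ) ∈ Icc _ _ from ⟨(hbot z.re hz1).le, (htop z.re hz1).le⟩)
      simp only at hgt₀
      have hz₀N : ((z.re : ℂ) + (t₀ : ℂ) * I) ∈ N := by
        refine ⟨by simpa using hz1, ?_⟩
        simp only [add_im, ofReal_im, mul_im, ofReal_re, I_im, mul_one, I_re, mul_zero, add_zero,
          zero_add]
        rw [abs_lt]; constructor <;> linarith [ht₀.1, ht₀.2]
      obtain ⟨hc1', hc2'⟩ := hc _ hz₀N hgt₀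
      have habs := abs_lt.1 hz2
      have hzt : z.im = t₀ := hR z.re (Ioo (p.im - 2 * b) (p.im + 2 * b)) Set.ordConnected_Ioo t₀
        ⟨by linarith [ht₀.1], by linarith [ht₀.2]⟩ hc1' hc2'
        (fun t ht => (hpos _ (by simpa using hz1) (by
          simp only [add_im, ofReal_im, mul_im, ofReal_re, I_im, mul_one, I_re, mul_zero,
            add_zero, zero_add]
          rw [abs_le]; constructor <;> linarith [ht.1, ht.2])).ne')
        z.im ⟨by linarith, by linarith⟩ (by rw [Complex.re_add_im]; exact hzf)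
      rw [← Complex.re_add_im z, hzt]; exact hgt₀
    have hUint : U ⊆ interior (closure U) := interior_maximal subset_closure hUo
    have he : Sin ⊆ U := by
      intro z hz
      by_contra hzU
      have hzf : z ∈ frontier U := by
        rw [frontier, hUo.interior_eq]; exact ⟨interior_subset (hin hz), hzU⟩
      exact (hSN z hz).2 (hd' z (hSN z hz).1 hzf)
    refine ⟨min a b, lt_min ha hb, Sin, hSo, hSc, he, ?_⟩
    rintro z ⟨hzU, hzb⟩
    have hzN : z ∈ N := by
      rw [mem_ball, dist_eq_norm] at hzb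
      have h1 := Complex.abs_re_le_norm (z - p)
      have h2 := Complex.abs_im_le_norm (z - p)
      simp only [sub_re, sub_im] at h1 h2
      exact ⟨by linarith [min_le_left a b], by linarith [min_le_right a b]⟩
    have hgz : g z ≠ 0 := fun h0 => (hc z hzN h0).2 (hUint hzU)
    rcases hor z hzN hgz with h | h
    · exact h
    · exact absurd (subset_closure hzU) (hout h)
  have hSpne : ∀ z ∈ Sp, g z ≠ 0 := fun z hz => hz.2.2.ne'
  have hSmne : ∀ z ∈ Sm, g z ≠ 0 := by
    intro z hz h0
    have := hz.2.2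
    rw [h0] at this
    simp at this
  have hor : ∀ z ∈ N, g z ≠ 0 → z ∈ Sp ∨ z ∈ Sm := by
    intro z hz hne
    rcases lt_or_gt_of_ne hne with h | h
    · exact Or.inr ⟨hz.1, hz.2, by linarith⟩
    · exact Or.inl ⟨hz.1, hz.2, h⟩
  have hpN : p ∈ N := ⟨by simp [ha], by simp [hb]⟩
  rcases hdich Sp hSpc.isPathConnected.isConnected.isPreconnected hSpne with hp1 | hp1 <;>
  rcases hdich Sm hSmc.isPathConnected.isConnected.isPreconnected hSmne with hm1 | hm1
  · exfalso
    obtain ⟨u, huN, huU⟩ := mem_closure_iff.1 hpC N hNo hpN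
    have hgu : g u = 0 := by
      by_contra hne
      rcases hor u huN hne with h | h
      · exact hp1 h (subset_closure huU)
      · exact hm1 h (subset_closure huU)
    obtain ⟨w, hwU, hwS⟩ := mem_closure_iff.1 (hcl u huN hgu).1 U hUo huU
    exact hp1 hwS (subset_closure hwU)
  · exact key Sm Sp hSmo hSmc hm1 hp1 (fun z hz h0 => (hcl z hz h0).symm)
      (fun z hz hne => (hor z hz hne).symm) (fun z hz => ⟨⟨hz.1, hz.2.1⟩, hSmne z hz⟩)
  · exact key Sp Sm hSpo hSpc hp1 hm1 hcl hor (fun z hz => ⟨⟨hz.1, hz.2.1⟩, hSpne z hz⟩)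
  · exfalso
    have hNC : N ⊆ closure U := by
      intro z hz
      by_cases h0 : g z = 0
      · exact closure_minimal (hp1.trans interior_subset) isClosed_closure (hcl z hz h0).1
      · rcases hor z hz h0 with h | h
        · exact interior_subset (hp1 h)
        · exact interior_subset (hm1 h)
    exact hpI (interior_maximal hNC hNo hpN)

/-- **Local structure theorem.** Let `U ⊆ ℂ` be open and let `f 0, f 1, …` be continuous real
functions on `ℂ`, each `f (j+1)` being the derivative of `f j` in the vertical direction, such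
that `f 0` vanishes on the frontier of `U`. If some `f j` does not vanish at some point of
`closure U \ interior (closure U)`, then there is a point `p` of that set near which `U` agrees
with a simply connected open set `W ⊆ U`. -/
theorem local_structure {U : Set ℂ} (hUo : IsOpen U) (f : ℕ → ℂ → ℝ)
    (hc : ∀ j, Continuous (f j))
    (hd : ∀ j (x t : ℝ), HasDerivAt (fun s : ℝ => f j (x + s * I)) (f (j + 1) (x + t * I)) t)
    (hfr : ∀ z ∈ frontier U, f 0 z = 0)
    (hex : ∃ p ∈ closure U, p ∉ interior (closure U) ∧ ∃ j, f j p ≠ 0) :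
    ∃ p ∈ closure U, p ∉ interior (closure U) ∧ ∃ ρ > 0, ∃ W : Set ℂ,
      IsOpen W ∧ IsSimplyConnected W ∧ W ⊆ U ∧ U ∩ ball p ρ ⊆ W := by
  classical
  have hex' : ∃ m, ∃ p ∈ closure U, p ∉ interior (closure U) ∧ f m p ≠ 0 := by
    obtain ⟨p, h1, h2, j, h3⟩ := hex
    exact ⟨j, p, h1, h2, h3⟩
  obtain ⟨p, hpC, hpI, hpm⟩ := Nat.find_spec hex'
  have hmin : ∀ j < Nat.find hex', ∀ z ∈ closure U, z ∉ interior (closure U) → f j z = 0 := by
    intro j hj z hz1 hz2
    by_contra hne
    exact Nat.find_min hex' hj ⟨z, hz1, hz2, hne⟩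
  have hBfr : ∀ z ∈ closure U, z ∉ interior (closure U) → z ∈ frontier U := by
    intro z hz1 hz2
    exact ⟨hz1, fun h => hz2 (interior_mono subset_closure h)⟩
  have hm0 : Nat.find hex' ≠ 0 := by
    intro h0
    rw [h0] at hpm
    exact hpm (hfr p (hBfr p hpC hpI))
  obtain ⟨k, hk⟩ := Nat.exists_eq_succ_of_ne_zero hm0
  rw [hk] at hpm hmin
  have hR : ∀ (x : ℝ) (J : Set ℝ), J.OrdConnected → ∀ t₀ ∈ J,
      ((x : ℂ) + (t₀ : ℂ) * I) ∈ closure U → ((x : ℂ) + (t₀ : ℂ) * I) ∉ interior (closure U) →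
      (∀ t ∈ J, f (k + 1) ((x : ℂ) + (t : ℂ) * I) ≠ 0) →
      ∀ t ∈ J, ((x : ℂ) + (t : ℂ) * I) ∈ frontier U → t = t₀ := by
    intro x J hJ t₀ ht₀ h1 h2 hne t ht htf
    by_contra htt
    exact rolle_order (k + 1) (fun j s => f j ((x : ℂ) + (s : ℂ) * I)) (fun j s => hd j x s) J hJ
      t₀ ht₀ (fun j hj => hmin j hj _ h1 h2) hne t ht htt (hfr _ htf)
  have hBk : ∀ z ∈ closure U, z ∉ interior (closure U) → f k z = 0 :=
    fun z h1 h2 => hmin k (Nat.lt_succ_self k) z h1 h2
  refine ⟨p, hpC, hpI, ?_⟩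
  rcases lt_or_gt_of_ne hpm with hneg | hpos
  · exact local_core hUo (fun z => -f k z) (fun z => -f (k + 1) z) (hc k).neg (hc (k + 1)).neg
      (fun x t => (hd k x t).neg) (fun z h1 h2 => by simp [hBk z h1 h2]) p hpC hpI
      (by simpa using hneg)
      (fun x J hJ t₀ ht₀ h1 h2 hne t ht htf =>
        hR x J hJ t₀ ht₀ h1 h2 (fun t ht h0 => hne t ht (by simp [h0])) t ht htf)
  · exact local_core hUo (f k) (f (k + 1)) (hc k) (hc (k + 1)) (hd k) hBk p hpC hpI hpos hR

end Vale.Agent.H74
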