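import Mathlib
import Vale.Agent.H74.NormalFamily

/-!
# The Riemann mapping theorem

`Vale.Agent.H74.riemann_mapping`: every open simply connected proper subset `U` of `ℂ` admits an
injective holomorphic map onto the open unit disc.

We follow the classical proof: the square root trick gives an injective holomorphic map of `U`
into the unit disc; an extremal map is obtained as an ultrafilter limit of a maximising sequence, it is injective
by a Hurwitz-type argument based on the maximum modulus principle, and it is onto the disc by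
the square-root trick of Koebe.
-/

open Metric Set Filter Topology
open scoped ComplexConjugate

namespace Vale.Agent.H74

/-- The Moebius map `w ↦ (w - a) / (1 - conj a * w)` of the unit disc. -/
noncomputable def mob (a w : ℂ) : ℂ := (w - a) / (1 - conj a * w)

lemma mob_denom_ne_zero {a w : ℂ} (ha : ‖a‖ < 1) (hw : ‖w‖ ≤ 1) : 1 - conj a * w ≠ 0 := by
  intro h
  have h1 : conj a * w = 1 := by linear_combination -h
  have h2 : ‖conj a * w‖ = 1 := by rw [h1]; simp
  rw [norm_mul, Complex.norm_conj] at h2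
  have h3 : ‖a‖ * ‖w‖ < 1 := by
    calc ‖a‖ * ‖w‖ ≤ ‖a‖ * 1 := mul_le_mul_of_nonneg_left hw (norm_nonneg _)
      _ < 1 := by linarith
  linarith

lemma one_sub_mul_conj_ne_zero {a : ℂ} (ha : ‖a‖ < 1) : 1 - conj a * a ≠ 0 :=
  mob_denom_ne_zero ha ha.le

lemma normSq_mob_identity (a w : ℂ) :
    Complex.normSq (1 - conj a * w) - Complex.normSq (w - a) =
      (1 - Complex.normSq a) * (1 - Complex.normSq w) := by
  simp only [Complex.normSq_apply, Complex.sub_re, Complex.sub_im, Complex.one_re, Complex.one_im,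
    Complex.mul_re, Complex.mul_im, Complex.conj_re, Complex.conj_im]
  ring

lemma norm_mob_lt_one {a w : ℂ} (ha : ‖a‖ < 1) (hw : ‖w‖ < 1) : ‖mob a w‖ < 1 := by
  have hd := mob_denom_ne_zero ha hw.le
  rw [mob, norm_div, div_lt_one (norm_pos_iff.mpr hd)]
  have h1 := normSq_mob_identity a w
  have ha2 : Complex.normSq a < 1 := by
    rw [Complex.normSq_eq_norm_sq]; nlinarith [norm_nonneg a]
  have hw2 : Complex.normSq w < 1 := by
    rw [Complex.normSq_eq_norm_sq]; nlinarith [norm_nonneg w]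
  have h2 : Complex.normSq (w - a) < Complex.normSq (1 - conj a * w) := by nlinarith
  rw [Complex.normSq_eq_norm_sq, Complex.normSq_eq_norm_sq] at h2
  exact lt_of_pow_lt_pow_left₀ 2 (norm_nonneg _) h2

lemma mob_neg_mob_aux (a b w : ℂ) (h1 : 1 - b * w ≠ 0) (h2 : 1 - b * a ≠ 0) :
    ((w - a) / (1 - b * w) - -a) / (1 - -b * ((w - a) / (1 - b * w))) = w := by
  have h3 : 1 - -b * ((w - a) / (1 - b * w)) = (1 - b * a) / (1 - b * w) := by
    rw [eq_div_iff h1, sub_mul, neg_mul, neg_mul, mul_assoc, div_mul_cancel₀ _ h1]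
    ring
  rw [h3, div_div_eq_mul_div, div_eq_iff h2, sub_neg_eq_add, add_mul, div_mul_cancel₀ _ h1]
  ring

lemma mob_neg_mob {a w : ℂ} (ha : ‖a‖ < 1) (hw : ‖w‖ < 1) : mob (-a) (mob a w) = w := by
  have hd := mob_denom_ne_zero ha hw.le
  have hd2 := one_sub_mul_conj_ne_zero ha
  unfold mob
  rw [map_neg]
  exact mob_neg_mob_aux a (conj a) w hd hd2

lemma hasDerivAt_mob {a w : ℂ} (ha : ‖a‖ < 1) (hw : ‖w‖ ≤ 1) :
    HasDerivAt (mob a) ((1 - conj a * a) / (1 - conj a * w) ^ 2) w := by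
  have hd := mob_denom_ne_zero ha hw
  have h1 : HasDerivAt (fun w : ℂ => w - a) 1 w := (hasDerivAt_id w).sub_const a
  have h2 : HasDerivAt (fun w : ℂ => 1 - conj a * w) (-conj a) w := by
    have := ((hasDerivAt_id w).const_mul (conj a)).const_sub 1
    simpa using this
  have h3 := h1.div h2 hd
  have e : (1 * (1 - conj a * w) - (w - a) * -conj a) / (1 - conj a * w) ^ 2 =
      (1 - conj a * a) / (1 - conj a * w) ^ 2 := by
    congr 1
    ring
  rw [← e]
  exact h3

lemma differentiableOn_mob {a : ℂ} (ha : ‖a‖ < 1) : DifferentiableOn ℂ (mob a) (ball 0 1) := by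
  intro w hw
  rw [mem_ball_zero_iff] at hw
  exact (hasDerivAt_mob ha hw.le).differentiableAt.differentiableWithinAt

lemma mob_self (a : ℂ) : mob a a = 0 := by simp [mob]

lemma mob_zero (a : ℂ) : mob a 0 = -a := by simp [mob]

lemma mob_eq_zero_iff {a w : ℂ} (ha : ‖a‖ < 1) (hw : ‖w‖ ≤ 1) : mob a w = 0 ↔ w = a := by
  have hd := mob_denom_ne_zero ha hw
  rw [mob, div_eq_zero_iff]
  constructor
  · rintro (h | h)
    · exact sub_eq_zero.mp h
    · exact absurd h hd
  · intro h; left; rw [h, sub_self]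

lemma mapsTo_mob {a : ℂ} (ha : ‖a‖ < 1) : MapsTo (mob a) (ball 0 1) (ball 0 1) := by
  intro w hw
  rw [mem_ball_zero_iff] at hw ⊢
  exact norm_mob_lt_one ha hw

lemma injOn_mob {a : ℂ} (ha : ‖a‖ < 1) : InjOn (mob a) (ball 0 1) := by
  intro w hw w' hw' h
  rw [mem_ball_zero_iff] at hw hw'
  rw [← mob_neg_mob ha hw, ← mob_neg_mob ha hw', h]

lemma norm_one_sub_conj_mul_self (a : ℂ) : ‖1 - conj a * a‖ = |1 - ‖a‖ ^ 2| := by
  have : (1 : ℂ) - conj a * a = ((1 - ‖a‖ ^ 2 : ℝ) : ℂ) := by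
    rw [Complex.conj_mul']
    push_cast
    ring
  rw [this, Complex.norm_real, Real.norm_eq_abs]

/-- On an open simply connected set, a nonvanishing holomorphic function has a holomorphic
square root. -/
lemma exists_differentiableOn_sq_eq {U : Set ℂ} (hUo : IsOpen U) (hUc : IsSimplyConnected U)
    {g : ℂ → ℂ} (hg : DifferentiableOn ℂ g U) (hg0 : ∀ z ∈ U, g z ≠ 0) :
    ∃ s : ℂ → ℂ, DifferentiableOn ℂ s U ∧ ∀ z ∈ U, s z ^ 2 = g z := by
  obtain ⟨s, hsc, hs⟩ := Complex.exists_continuousOn_pow_eq hUc hUo hg.continuousOn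
    (by rintro ⟨z, hz, h⟩; exact hg0 z hz h) two_ne_zero
  refine ⟨s, ?_, fun z _ => hs z⟩
  intro z hz
  have hsz : s z ≠ 0 := by
    intro h
    have h1 := hs z
    rw [h] at h1
    exact hg0 z hz (by simpa using h1.symm)
  have hcont : ContinuousAt s z := hsc.continuousAt (hUo.mem_nhds hz)
  have hgd : HasDerivAt g (deriv g z) z := (hg.differentiableAt (hUo.mem_nhds hz)).hasDerivAt
  have hsum : Tendsto (fun w => s w + s z) (𝓝[≠] z) (𝓝 (s z + s z)) :=
    (hcont.tendsto.mono_left nhdsWithin_le_nhds).add_const _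
  have hsum0 : s z + s z ≠ 0 := by rw [← two_mul]; exact mul_ne_zero two_ne_zero hsz
  have hd : HasDerivAt s (deriv g z * (s z + s z)⁻¹) z := by
    rw [hasDerivAt_iff_tendsto_slope]
    have h1 : Tendsto (fun w => slope g z w * (s w + s z)⁻¹) (𝓝[≠] z)
        (𝓝 (deriv g z * (s z + s z)⁻¹)) :=
      (hasDerivAt_iff_tendsto_slope.mp hgd).mul (hsum.inv₀ hsum0)
    apply h1.congr'
    have hev : ∀ᶠ w in 𝓝[≠] z, s w + s z ≠ 0 := hsum.eventually_ne hsum0
    filter_upwards [hev] with w hw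
    simp only [slope, vsub_eq_sub, smul_eq_mul]
    rw [← hs w, ← hs z]
    have : s w ^ 2 - s z ^ 2 = (s w - s z) * (s w + s z) := by ring
    rw [this, mul_assoc, mul_assoc, mul_inv_cancel₀ hw, mul_one]
  exact hd.differentiableAt.differentiableWithinAt

/-- A Hurwitz-type lemma: a pointwise limit (along a nontrivial filter) of uniformly bounded
injective holomorphic functions on a connected open set is injective, provided it is not
constant. -/
lemma injOn_of_limit {ι : Type*} (𝒰 : Filter ι) [𝒰.NeBot] {U : Set ℂ} (hUo : IsOpen U)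
    (hUc : IsPreconnected U) {R : ℝ} (f : ι → ℂ → ℂ) (hf : ∀ i, DifferentiableOn ℂ (f i) U)
    (hmaps : ∀ i, MapsTo (f i) U (closedBall 0 R)) (hinj : ∀ i, InjOn (f i) U)
    (L : ℂ → ℂ) (hL : DifferentiableOn ℂ L U) (hLmaps : MapsTo L U (closedBall 0 R))
    (hLtend : ∀ x ∈ U, Tendsto (fun i => f i x) 𝒰 (𝓝 (L x)))
    (hnc : ∀ a ∈ U, ∃ z ∈ U, L z ≠ L a) : InjOn L U := by
  intro a ha b hb hab
  by_contra hne
  set h : ℂ → ℂ := fun z => L z - L a with hh
  have hhd : DifferentiableOn ℂ h U := hL.sub_const _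
  have han : AnalyticOnNhd ℂ h U := hhd.analyticOnNhd hUo
  rcases (han b hb).eventually_eq_zero_or_eventually_ne_zero with h0 | h0
  · have := han.eqOn_zero_of_preconnected_of_eventuallyEq_zero hUc hb h0
    obtain ⟨z, hz, hz'⟩ := hnc a ha
    exact hz' (sub_eq_zero.mp (this hz))
  · rw [eventually_nhdsWithin_iff] at h0
    obtain ⟨ε, hε, hεb⟩ := Metric.eventually_nhds_iff.mp h0
    obtain ⟨r₁, hr₁, hball⟩ := Metric.isOpen_iff.mp hUo b hb
    have hdab : 0 < dist a b := dist_pos.mpr hne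
    set r := min (min (ε / 2) (r₁ / 2)) (dist a b / 2) with hrdef
    have hr : 0 < r := by
      rw [hrdef]; exact lt_min (lt_min (by positivity) (by positivity)) (by positivity)
    have hrε : r < ε := by
      calc r ≤ ε / 2 := (min_le_left _ _).trans (min_le_left _ _)
        _ < ε := by linarith
    have hrr₁ : r < r₁ := by
      calc r ≤ r₁ / 2 := (min_le_left _ _).trans (min_le_right _ _)
        _ < r₁ := by linarith
    have hrab : r < dist a b := by
      calc r ≤ dist a b / 2 := min_le_right _ _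
        _ < dist a b := by linarith
    have hcb : closedBall b r ⊆ U := (closedBall_subset_ball hrr₁).trans hball
    have ha_notin : a ∉ closedBall b r := by
      rw [mem_closedBall]; linarith
    have hsph : ∀ z ∈ sphere b r, h z ≠ 0 := by
      intro z hz
      apply hεb
      · rw [mem_sphere] at hz; rw [hz]; exact hrε
      · intro hzb
        rw [mem_sphere, hzb, dist_self] at hz
        linarith
    have hhc : ContinuousOn (fun z => ‖h z‖) (sphere b r) :=
      (hhd.continuousOn.mono (sphere_subset_closedBall.trans hcb)).norm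
    obtain ⟨z₁, hz₁, hmin⟩ := (isCompact_sphere b r).exists_isMinOn
      (NormedSpace.sphere_nonempty.mpr hr.le) hhc
    set m := ‖h z₁‖ with hmdef
    have hm : 0 < m := norm_pos_iff.mpr (hsph z₁ hz₁)
    have hK : IsCompact (insert a (closedBall b r)) := (isCompact_closedBall b r).insert a
    have hKU : insert a (closedBall b r) ⊆ U := insert_subset ha hcb
    have hev := eventually_forall_mem_compact_lt 𝒰 hUo f hf hmaps L hL hLmaps hLtend hK hKU
      (ε := m / 4) (by positivity)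
    obtain ⟨i, hi⟩ := hev.exists
    set g : ℂ → ℂ := fun z => f i z - f i a with hg
    have hclose : ∀ z ∈ closedBall b r, ‖g z - h z‖ < m / 2 := by
      intro z hz
      have h1 := hi z (mem_insert_of_mem _ hz)
      have h2 := hi a (mem_insert _ _)
      have : g z - h z = (f i z - L z) - (f i a - L a) := by simp only [hg, hh]; ring
      rw [this]
      calc ‖(f i z - L z) - (f i a - L a)‖ ≤ ‖f i z - L z‖ + ‖f i a - L a‖ := norm_sub_le _ _
        _ < m / 2 := by linarith
    have hnz : ∀ z ∈ closedBall b r, g z ≠ 0 := by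
      intro z hz hz0
      have : f i z = f i a := sub_eq_zero.mp hz0
      have hza := hinj i (hcb hz) ha this
      rw [hza] at hz
      exact ha_notin hz
    have hgd : DifferentiableOn ℂ g U := (hf i).sub_const _
    have hdc : DiffContOnCl ℂ (fun z => (g z)⁻¹) (ball b r) := by
      refine ⟨?_, ?_⟩
      · exact ((hgd.mono (ball_subset_closedBall.trans hcb))).inv
          (fun z hz => hnz z (ball_subset_closedBall hz))
      · rw [closure_ball b hr.ne']
        exact (hgd.continuousOn.mono hcb).inv₀ hnz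
    have hfront : ∀ z ∈ frontier (ball b r), ‖(g z)⁻¹‖ ≤ 2 / m := by
      intro z hz
      rw [frontier_ball b hr.ne'] at hz
      have h1 := hclose z (sphere_subset_closedBall hz)
      have h2 : m ≤ ‖h z‖ := hmin hz
      have h3 : m / 2 ≤ ‖g z‖ := by
        have : ‖h z‖ ≤ ‖g z‖ + ‖g z - h z‖ := by
          calc ‖h z‖ = ‖g z - (g z - h z)‖ := by congr 1; ring
            _ ≤ ‖g z‖ + ‖g z - h z‖ := norm_sub_le _ _
        linarith
      rw [norm_inv, inv_le_comm₀ (by linarith) (by positivity)]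
      simpa using h3
    have hb1 := Complex.norm_le_of_forall_mem_frontier_norm_le isBounded_ball hdc hfront
      (subset_closure (mem_ball_self hr))
    have hb2 := hclose b (mem_closedBall_self hr.le)
    have hb0 : h b = 0 := by simp [hh, hab]
    rw [hb0, sub_zero] at hb2
    have hgb : g b ≠ 0 := hnz b (mem_closedBall_self hr.le)
    rw [norm_inv, inv_le_comm₀ (norm_pos_iff.mpr hgb) (by positivity)] at hb1
    have : (2 / m)⁻¹ = m / 2 := by rw [inv_div]
    rw [this] at hb1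
    linarith

/-- An open simply connected proper subset of `ℂ` has an injective holomorphic map into the unit
disc with nowhere vanishing derivative (square root trick). -/
lemma exists_injOn_mapsTo_ball {U : Set ℂ} (hUo : IsOpen U) (hUc : IsSimplyConnected U)
    (hU : U ≠ univ) :
    ∃ f : ℂ → ℂ, DifferentiableOn ℂ f U ∧ MapsTo f U (ball 0 1) ∧ InjOn f U ∧
      ∀ z ∈ U, deriv f z ≠ 0 := by
  obtain ⟨a, ha⟩ := (ne_univ_iff_exists_notMem U).mp hU
  have hg : DifferentiableOn ℂ (fun z : ℂ => z - a) U :=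
    (differentiable_id.sub_const a).differentiableOn
  have hg0 : ∀ z ∈ U, z - a ≠ 0 := fun z hz h => ha (sub_eq_zero.mp h ▸ hz)
  obtain ⟨s, hsd, hs⟩ := exists_differentiableOn_sq_eq hUo hUc hg hg0
  have hs0 : ∀ z ∈ U, s z ≠ 0 := by
    intro z hz h
    have h1 := hs z hz
    rw [h] at h1
    exact hg0 z hz (by simpa using h1.symm)
  have hsinj : InjOn s U := by
    intro x hx y hy hxy
    have h1 : x - a = y - a := by rw [← hs x hx, ← hs y hy, hxy]
    exact sub_left_injective h1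
  have hsneg : ∀ x ∈ U, ∀ y ∈ U, s x ≠ -s y := by
    intro x hx y hy hxy
    have h1 : x - a = y - a := by rw [← hs x hx, ← hs y hy, hxy]; ring
    have h2 : x = y := sub_left_injective h1
    rw [h2] at hxy
    have h3 : s y = 0 := by
      have : (2 : ℂ) * s y = 0 := by linear_combination hxy
      simpa using this
    exact hs0 y hy h3
  have hsderiv : ∀ z ∈ U, HasDerivAt s (deriv s z) z ∧ deriv s z ≠ 0 := by
    intro z hz
    have h1 : HasDerivAt s (deriv s z) z := (hsd.differentiableAt (hUo.mem_nhds hz)).hasDerivAt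
    refine ⟨h1, ?_⟩
    have h2 : HasDerivAt (fun z => s z ^ 2) (2 * s z * deriv s z) z := by
      have := h1.fun_pow 2
      simpa using this
    have h3 : HasDerivAt (fun z => s z ^ 2) 1 z := by
      have h4 : HasDerivAt (fun z : ℂ => z - a) 1 z := (hasDerivAt_id z).sub_const a
      apply h4.congr_of_eventuallyEq
      filter_upwards [hUo.mem_nhds hz] with w hw using hs w hw
    have h5 := h2.unique h3
    intro h0
    rw [h0, mul_zero] at h5
    exact zero_ne_one h5
  obtain ⟨z₁, hz₁⟩ := hUc.nonempty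
  have hstrict : HasStrictDerivAt s (deriv s z₁) z₁ :=
    (hsd.analyticAt (hUo.mem_nhds hz₁)).hasStrictDerivAt
  have hnhds : s '' U ∈ 𝓝 (s z₁) := by
    rw [← hstrict.map_nhds_eq (hsderiv z₁ hz₁).2]
    exact image_mem_map (hUo.mem_nhds hz₁)
  obtain ⟨ε, hε, hεsub⟩ := Metric.mem_nhds_iff.mp hnhds
  have hfar : ∀ z ∈ U, ε ≤ ‖s z + s z₁‖ := by
    intro z hz
    by_contra hlt
    push Not at hlt
    have h1 : -s z ∈ ball (s z₁) ε := by
      rw [mem_ball, dist_eq_norm]
      have : -s z - s z₁ = -(s z + s z₁) := by ring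
      rw [this, norm_neg]
      exact hlt
    obtain ⟨y, hy, hy'⟩ := hεsub h1
    exact hsneg y hy z hz hy'
  have hden : ∀ z ∈ U, s z + s z₁ ≠ 0 := by
    intro z hz h
    have := hfar z hz
    rw [h, norm_zero] at this
    linarith
  have hε2 : ((ε / 2 : ℝ) : ℂ) ≠ 0 := by
    rw [Ne, Complex.ofReal_eq_zero]; positivity
  refine ⟨fun z => ((ε / 2 : ℝ) : ℂ) / (s z + s z₁), ?_, ?_, ?_, ?_⟩
  · exact (differentiableOn_const _).div (hsd.add_const _) hden
  · intro z hz
    rw [mem_ball_zero_iff, norm_div, Complex.norm_real, Real.norm_eq_abs, abs_of_pos (by positivity),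
      div_lt_one (norm_pos_iff.mpr (hden z hz))]
    have := hfar z hz
    linarith
  · intro x hx y hy hxy
    have h1 : s x + s z₁ = s y + s z₁ := by
      have h2 := hxy
      simp only at h2
      rw [div_eq_div_iff (hden x hx) (hden y hy)] at h2
      exact (mul_left_cancel₀ hε2 h2).symm
    exact hsinj hx hy (add_right_cancel h1)
  · intro z hz
    have h1 : HasDerivAt (fun z => s z + s z₁) (deriv s z) z := (hsderiv z hz).1.add_const _
    have h2 := (hasDerivAt_const z ((ε / 2 : ℝ) : ℂ)).fun_div h1 (hden z hz)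
    rw [h2.deriv]
    apply div_ne_zero _ (pow_ne_zero 2 (hden z hz))
    rw [zero_mul, zero_sub, neg_ne_zero]
    exact mul_ne_zero hε2 (hsderiv z hz).2

/-- **Riemann mapping theorem.** An open simply connected proper subset of `ℂ` is mapped
injectively and holomorphically onto the open unit disc. -/
theorem riemann_mapping {U : Set ℂ} (hUo : IsOpen U) (hUc : IsSimplyConnected U)
    (hU : U ≠ univ) :
    ∃ f : ℂ → ℂ, DifferentiableOn ℂ f U ∧ InjOn f U ∧ f '' U = ball 0 1 := by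
  obtain ⟨f₀, -, hf₀maps, hf₀inj, hf₀d⟩ := exists_injOn_mapsTo_ball hUo hUc hU
  obtain ⟨z₀, hz₀⟩ := hUc.nonempty
  have hUconn : IsPreconnected U := hUc.isPathConnected.isConnected.isPreconnected
  obtain ⟨r, hr, hball⟩ := Metric.isOpen_iff.mp hUo z₀ hz₀
  let 𝓕 : Set (ℂ → ℂ) :=
    {f | DifferentiableOn ℂ f U ∧ MapsTo f U (ball 0 1) ∧ InjOn f U ∧ f z₀ = 0}
  have hf₀diff : DifferentiableOn ℂ f₀ U := fun z hz =>
    (differentiableAt_of_deriv_ne_zero (hf₀d z hz)).differentiableWithinAt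
  set a := f₀ z₀ with hadef
  have ha : ‖a‖ < 1 := mem_ball_zero_iff.mp (hf₀maps hz₀)
  set f₁ : ℂ → ℂ := mob a ∘ f₀ with hf₁def
  have hf₁ : f₁ ∈ 𝓕 :=
    ⟨(differentiableOn_mob ha).comp hf₀diff hf₀maps, (mapsTo_mob ha).comp hf₀maps,
      (injOn_mob ha).comp hf₀inj hf₀maps, mob_self a⟩
  have hf₁deriv : deriv f₁ z₀ ≠ 0 := by
    have h1 := hasDerivAt_mob ha ha.le
    have h2 : HasDerivAt f₀ (deriv f₀ z₀) z₀ :=
      (differentiableAt_of_deriv_ne_zero (hf₀d z₀ hz₀)).hasDerivAt
    have h3 := HasDerivAt.comp z₀ h1 h2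
    rw [hf₁def, h3.deriv]
    exact mul_ne_zero (div_ne_zero (one_sub_mul_conj_ne_zero ha)
      (pow_ne_zero 2 (one_sub_mul_conj_ne_zero ha))) (hf₀d z₀ hz₀)
  have hbound : ∀ f ∈ 𝓕, ‖deriv f z₀‖ ≤ 1 / r := by
    intro f hf
    apply Complex.norm_deriv_le_div_of_mapsTo_ball (hf.1.mono hball) _ hr
    intro w hw
    rw [hf.2.2.2]
    exact ball_subset_closedBall (hf.2.1 (hball hw))
  set T : Set ℝ := (fun f : ℂ → ℂ => ‖deriv f z₀‖) '' 𝓕 with hT
  set S := sSup T with hSdef
  have hSbdd : BddAbove T := ⟨1 / r, by rintro _ ⟨f, hf, rfl⟩; exact hbound f hf⟩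
  have hSne : T.Nonempty := ⟨_, f₁, hf₁, rfl⟩
  have hSpos : 0 < S :=
    lt_of_lt_of_le (norm_pos_iff.mpr hf₁deriv) (le_csSup hSbdd ⟨f₁, hf₁, rfl⟩)
  obtain ⟨u, -, hu, huS⟩ := exists_seq_tendsto_sSup hSne hSbdd
  choose f hf𝓕 hfu using huS
  let 𝒰 : Ultrafilter ℕ := Ultrafilter.of atTop
  have h𝒰 : (𝒰 : Filter ℕ) ≤ atTop := Ultrafilter.of_le atTop
  have hmapsR : ∀ k, MapsTo (f k) U (closedBall 0 1) := fun k z hz =>
    ball_subset_closedBall ((hf𝓕 k).2.1 hz)
  obtain ⟨L, hLd, hLmaps, hLtend, hLderiv⟩ :=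
    exists_limit_fderiv 𝒰 hUo f (fun k => (hf𝓕 k).1) hmapsR
  have hLz₀ : L z₀ = 0 := by
    have h1 := hLtend z₀ hz₀
    have h2 : (fun k => f k z₀) = fun _ => (0:ℂ) := funext fun k => (hf𝓕 k).2.2.2
    rw [h2] at h1
    exact tendsto_nhds_unique h1 tendsto_const_nhds
  have hLS : ‖deriv L z₀‖ = S := by
    have h1 := hLderiv z₀ hz₀
    have h2 : Tendsto (fun k => ‖fderiv ℂ (f k) z₀ 1‖) 𝒰 (𝓝 ‖fderiv ℂ L z₀ 1‖) :=
      (((ContinuousLinearMap.apply ℂ ℂ (1:ℂ)).continuous.tendsto _).comp h1).norm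
    have h3 : (fun k => ‖fderiv ℂ (f k) z₀ 1‖) = u := by
      funext k
      rw [fderiv_apply_one_eq_deriv]
      exact hfu k
    rw [h3, fderiv_apply_one_eq_deriv] at h2
    exact tendsto_nhds_unique h2 (hu.mono_left h𝒰)
  have hLderiv_ne : deriv L z₀ ≠ 0 := by
    intro h
    rw [h, norm_zero] at hLS
    linarith
  -- `L` is not constant
  have hnc : ∀ a ∈ U, ∃ z ∈ U, L z ≠ L a := by
    intro a _
    by_contra hcon
    push Not at hcon
    have h1 : L =ᶠ[𝓝 z₀] fun _ => L a := by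
      filter_upwards [hUo.mem_nhds hz₀] with z hz using hcon z hz
    have h2 := h1.deriv_eq
    rw [deriv_const] at h2
    exact hLderiv_ne h2
  -- `L` maps into the open disc
  have hLopen : MapsTo L U (ball 0 1) := by
    intro z hz
    rw [mem_ball_zero_iff]
    by_contra hge
    have h1 : ‖L z‖ = 1 := le_antisymm (mem_closedBall_zero_iff.mp (hLmaps hz)) (not_lt.mp hge)
    have hmax : IsMaxOn (norm ∘ L) U z := by
      intro w hw
      simp only [Set.mem_ofPred_eq, Function.comp]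
      rw [h1]
      exact mem_closedBall_zero_iff.mp (hLmaps hw)
    have h2 := Complex.eqOn_of_isPreconnected_of_isMaxOn_norm hUconn hUo hLd hz hmax hz₀
    simp only [Function.const] at h2
    rw [← h2, hLz₀, norm_zero] at h1
    exact zero_ne_one h1
  have hLinj : InjOn L U :=
    injOn_of_limit (𝒰 : Filter ℕ) hUo hUconn f (fun k => (hf𝓕 k).1) hmapsR
      (fun k => (hf𝓕 k).2.2.1) L hLd hLmaps hLtend hnc
  refine ⟨L, hLd, hLinj, ?_⟩
  apply Subset.antisymm (image_subset_iff.mpr hLopen)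
  intro w₀ hw₀
  by_contra hw₀not
  have hw₀n : ‖w₀‖ < 1 := mem_ball_zero_iff.mp hw₀
  have hw₀ne : w₀ ≠ 0 := by
    rintro rfl
    exact hw₀not ⟨z₀, hz₀, hLz₀⟩
  -- the function `ψ = mob w₀ ∘ L`
  set ψ : ℂ → ℂ := mob w₀ ∘ L with hψ
  have hψd : DifferentiableOn ℂ ψ U := (differentiableOn_mob hw₀n).comp hLd hLopen
  have hψmaps : MapsTo ψ U (ball 0 1) := (mapsTo_mob hw₀n).comp hLopen
  have hψ0 : ∀ z ∈ U, ψ z ≠ 0 := by
    intro z hz h
    have h1 := (mob_eq_zero_iff hw₀n (mem_closedBall_zero_iff.mp (hLmaps hz))).mp h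
    exact hw₀not ⟨z, hz, h1⟩
  obtain ⟨s, hsd, hs⟩ := exists_differentiableOn_sq_eq hUo hUc hψd hψ0
  have hsn : ∀ z ∈ U, ‖s z‖ < 1 := by
    intro z hz
    have h1 : ‖s z‖ ^ 2 < 1 := by
      rw [← norm_pow, hs z hz]
      exact mem_ball_zero_iff.mp (hψmaps hz)
    nlinarith [norm_nonneg (s z)]
  have hsmaps : MapsTo s U (ball 0 1) := fun z hz => mem_ball_zero_iff.mpr (hsn z hz)
  have hsinj : InjOn s U := by
    intro x hx y hy hxy
    have h1 : ψ x = ψ y := by rw [← hs x hx, ← hs y hy, hxy]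
    exact hLinj hx hy (injOn_mob hw₀n (hLopen hx) (hLopen hy) h1)
  set c := s z₀ with hcdef
  have hc : ‖c‖ < 1 := hsn z₀ hz₀
  have hc2 : c ^ 2 = -w₀ := by
    rw [hcdef, hs z₀ hz₀, hψ, Function.comp_apply, hLz₀, mob_zero]
  have hcne : c ≠ 0 := by
    rintro h
    rw [h] at hc2
    exact hw₀ne (by simpa using hc2.symm)
  set F : ℂ → ℂ := mob c ∘ s with hFdef
  have hF : F ∈ 𝓕 :=
    ⟨(differentiableOn_mob hc).comp hsd hsmaps, (mapsTo_mob hc).comp hsmaps,
      (injOn_mob hc).comp hsinj hsmaps, mob_self c⟩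
  -- derivatives
  have hsderiv : HasDerivAt s (deriv s z₀) z₀ :=
    (hsd.differentiableAt (hUo.mem_nhds hz₀)).hasDerivAt
  have hLderiv' : HasDerivAt L (deriv L z₀) z₀ :=
    (hLd.differentiableAt (hUo.mem_nhds hz₀)).hasDerivAt
  have hψ1 : HasDerivAt ψ ((1 - conj w₀ * w₀) / (1 - conj w₀ * L z₀) ^ 2 * deriv L z₀) z₀ :=
    HasDerivAt.comp z₀ (hasDerivAt_mob hw₀n (mem_closedBall_zero_iff.mp (hLmaps hz₀))) hLderiv'
  have hψ2 : HasDerivAt ψ (2 * c * deriv s z₀) z₀ := by
    have h1 : HasDerivAt (fun z => s z ^ 2) (2 * c * deriv s z₀) z₀ := by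
      have := hsderiv.fun_pow 2
      simpa [hcdef] using this
    apply h1.congr_of_eventuallyEq
    filter_upwards [hUo.mem_nhds hz₀] with z hz using (hs z hz).symm
  have hrel : 2 * c * deriv s z₀ = (1 - conj w₀ * w₀) * deriv L z₀ := by
    have := hψ2.unique hψ1
    rw [this, hLz₀]
    simp
  have hFderiv : HasDerivAt F ((1 - conj c * c) / (1 - conj c * c) ^ 2 * deriv s z₀) z₀ :=
    HasDerivAt.comp z₀ (hasDerivAt_mob hc hc.le) hsderiv
  have hFle : ‖deriv F z₀‖ ≤ S := le_csSup hSbdd ⟨F, hF, rfl⟩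
  rw [hFderiv.deriv] at hFle
  -- norms
  set t := ‖c‖ with htdef
  have ht0 : 0 < t := norm_pos_iff.mpr hcne
  have hw₀t : ‖w₀‖ = t ^ 2 := by
    have : ‖c ^ 2‖ = ‖w₀‖ := by rw [hc2, norm_neg]
    rw [← this, norm_pow]
  have hn1 : ‖(1 : ℂ) - conj c * c‖ = 1 - t ^ 2 := by
    rw [norm_one_sub_conj_mul_self, abs_of_pos]
    nlinarith
  have hn2 : ‖(1 : ℂ) - conj w₀ * w₀‖ = 1 - t ^ 4 := by
    rw [norm_one_sub_conj_mul_self, hw₀t, abs_of_pos]
    · ring
    · nlinarith [sq_nonneg t, sq_nonneg (t ^ 2)]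
  have hrel_norm : 2 * t * ‖deriv s z₀‖ = (1 - t ^ 4) * S := by
    have := congrArg norm hrel
    rw [norm_mul, norm_mul, norm_mul, hn2, hLS] at this
    simpa using this
  have hFnorm : ‖(1 - conj c * c) / (1 - conj c * c) ^ 2 * deriv s z₀‖ * (1 - t ^ 2) =
      ‖deriv s z₀‖ := by
    rw [norm_mul, norm_div, norm_pow, hn1]
    have : (1 : ℝ) - t ^ 2 ≠ 0 := by nlinarith
    field_simp
  set D := ‖(1 - conj c * c) / (1 - conj c * c) ^ 2 * deriv s z₀‖ with hDdef
  have ht1 : t < 1 := hc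
  have h1t : 0 < 1 - t ^ 2 := by nlinarith
  have key : 2 * t * D * (1 - t ^ 2) = (1 + t ^ 2) * S * (1 - t ^ 2) := by
    calc 2 * t * D * (1 - t ^ 2) = 2 * t * (D * (1 - t ^ 2)) := by ring
      _ = 2 * t * ‖deriv s z₀‖ := by rw [hFnorm]
      _ = (1 - t ^ 4) * S := hrel_norm
      _ = (1 + t ^ 2) * S * (1 - t ^ 2) := by ring
    
  have key2 : 2 * t * D = (1 + t ^ 2) * S := mul_right_cancel₀ h1t.ne' key
  nlinarith [sq_nonneg (1 - t), mul_pos hSpos (sq_pos_of_pos (sub_pos.mpr ht1))]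

end Vale.Agent.H74
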