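import Mathlib

/-!
# Real polynomial functions on the plane and semialgebraic sets

The frontier of a semialgebraic subset of `ℂ = ℝ²` lies in the zero set of a nonzero real
polynomial, and the vertical derivatives of such a polynomial cannot all vanish on
`closure U \ interior (closure U)` when `U` is a nonempty bounded open set.
-/

open Set Filter Topology Metric Complex

namespace Vale.Agent.H74

/-- The real polynomial function `z ↦ P (Re z, Im z)` on `ℂ`. -/
noncomputable def pev (P : MvPolynomial (Fin 2) ℝ) (z : ℂ) : ℝ :=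
  MvPolynomial.eval ![z.re, z.im] P

/-- The derivative of a two-variable polynomial with respect to its second variable. -/
noncomputable def dY (P : MvPolynomial (Fin 2) ℝ) : MvPolynomial (Fin 2) ℝ :=
  MvPolynomial.pderiv 1 P

lemma continuous_pev (P : MvPolynomial (Fin 2) ℝ) : Continuous (pev P) := by
  unfold pev
  refine (MvPolynomial.continuous_eval P).comp (continuous_pi fun i => ?_)
  fin_cases i
  · simpa using Complex.continuous_re
  · simpa using Complex.continuous_im

lemma pev_add_mul_I (P : MvPolynomial (Fin 2) ℝ) (x t : ℝ) :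
    pev P ((x : ℂ) + (t : ℂ) * I) = MvPolynomial.eval ![x, t] P := by
  simp [pev]

lemma hasDerivAt_eval (P : MvPolynomial (Fin 2) ℝ) (x t : ℝ) :
    HasDerivAt (fun s : ℝ => MvPolynomial.eval ![x, s] P)
      (MvPolynomial.eval ![x, t] (dY P)) t := by
  unfold dY
  induction P using MvPolynomial.induction_on with
  | C a => simpa using hasDerivAt_const t a
  | add p q hp hq =>
    have := hp.add hq
    simp only [map_add]
    exact this
  | mul_X p i hp =>
    fin_cases i
    · have h1 : (fun s : ℝ => MvPolynomial.eval ![x, s] (p * MvPolynomial.X (0 : Fin 2)))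
          = fun s => MvPolynomial.eval ![x, s] p * x := by
        funext s; simp
      have h2 : MvPolynomial.eval ![x, t] (MvPolynomial.pderiv 1 (p * MvPolynomial.X (0 : Fin 2)))
          = MvPolynomial.eval ![x, t] (MvPolynomial.pderiv 1 p) * x := by
        simp [Derivation.leibniz, MvPolynomial.pderiv_X, mul_comm]
      show HasDerivAt (fun s : ℝ => MvPolynomial.eval ![x, s] (p * MvPolynomial.X (0 : Fin 2)))
        (MvPolynomial.eval ![x, t] (MvPolynomial.pderiv 1 (p * MvPolynomial.X (0 : Fin 2)))) t
      rw [h1, h2]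
      exact hp.mul_const x
    · have h1 : (fun s : ℝ => MvPolynomial.eval ![x, s] (p * MvPolynomial.X (1 : Fin 2)))
          = fun s => MvPolynomial.eval ![x, s] p * s := by
        funext s; simp
      have h2 : MvPolynomial.eval ![x, t] (MvPolynomial.pderiv 1 (p * MvPolynomial.X (1 : Fin 2)))
          = MvPolynomial.eval ![x, t] (MvPolynomial.pderiv 1 p) * t
            + MvPolynomial.eval ![x, t] p * 1 := by
        simp [Derivation.leibniz, MvPolynomial.pderiv_X, mul_comm, add_comm]
      show HasDerivAt (fun s : ℝ => MvPolynomial.eval ![x, s] (p * MvPolynomial.X (1 : Fin 2)))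
        (MvPolynomial.eval ![x, t] (MvPolynomial.pderiv 1 (p * MvPolynomial.X (1 : Fin 2)))) t
      rw [h1, h2]
      exact hp.mul (hasDerivAt_id t)

lemma hasDerivAt_pev (P : MvPolynomial (Fin 2) ℝ) (x t : ℝ) :
    HasDerivAt (fun s : ℝ => pev P ((x : ℂ) + (s : ℂ) * I))
      (pev (dY P) ((x : ℂ) + (t : ℂ) * I)) t := by
  simp only [pev_add_mul_I]
  exact hasDerivAt_eval P x t

/-- The one-variable polynomial obtained by substituting the constant `c` for the first
variable. -/
noncomputable def slice (c : ℝ) : MvPolynomial (Fin 2) ℝ →ₐ[ℝ] Polynomial ℝ :=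
  MvPolynomial.aeval ![Polynomial.C c, Polynomial.X]

lemma eval_slice (c t : ℝ) (P : MvPolynomial (Fin 2) ℝ) :
    Polynomial.eval t (slice c P) = MvPolynomial.eval ![c, t] P := by
  induction P using MvPolynomial.induction_on with
  | C a => simp [slice]
  | add p q hp hq => simp [hp, hq]
  | mul_X p i hp =>
    simp only [slice] at hp ⊢
    fin_cases i
    · simp [hp]
    · simp [hp]

lemma slice_dY (c : ℝ) (P : MvPolynomial (Fin 2) ℝ) :
    slice c (dY P) = Polynomial.derivative (slice c P) := by
  unfold dY
  induction P using MvPolynomial.induction_on with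
  | C a => simp [slice]
  | add p q hp hq => simp [hp, hq]
  | mul_X p i hp =>
    simp only [slice] at hp ⊢
    fin_cases i
    · simp [Derivation.leibniz, MvPolynomial.pderiv_X, hp, Polynomial.derivative_mul]; ring
    · simp [Derivation.leibniz, MvPolynomial.pderiv_X, hp, Polynomial.derivative_mul]; ring

lemma eval_eq_zero_of_iterate (F : MvPolynomial (Fin 2) ℝ) (c t₀ : ℝ)
    (h : ∀ j, MvPolynomial.eval ![c, t₀] (dY^[j] F) = 0) (t : ℝ) :
    MvPolynomial.eval ![c, t] F = 0 := by
  have h1 : ∀ j, slice c (dY^[j] F) = Polynomial.derivative^[j] (slice c F) := by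
    intro j
    induction j with
    | zero => rfl
    | succ j ih =>
      rw [Function.iterate_succ_apply', Function.iterate_succ_apply', slice_dY, ih]
  have h2 : slice c F = 0 := by
    apply Polynomial.eq_zero_of_hasseDeriv_eq_zero _ t₀
    intro k
    have h3 := h k
    have h5 : k.factorial • Polynomial.hasseDeriv k (slice c F)
        = Polynomial.derivative^[k] (slice c F) := by
      rw [← Polynomial.factorial_smul_hasseDeriv]; rfl
    rw [← eval_slice, h1, ← h5, Polynomial.eval_smul, nsmul_eq_mul] at h3
    rcases mul_eq_zero.1 h3 with h4 | h4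
    · exact absurd h4 (by exact_mod_cast (Nat.factorial_ne_zero k))
    · exact h4
  rw [← eval_slice, h2]
  simp

/-- The frontier of a semialgebraic subset of `ℂ = ℝ²` (a member of the Boolean algebra of sets
generated by the sets `{z | 0 < P (Re z, Im z)}`) lies in the zero set of a nonzero real
polynomial. -/
lemma frontier_subset_zeros {S : Set ℂ}
    (hS : S ∈ BooleanSubalgebra.closure (Set.range fun P : MvPolynomial (Fin 2) ℝ =>
      {z : ℂ | 0 < MvPolynomial.eval ![z.re, z.im] P})) :
    ∃ F : MvPolynomial (Fin 2) ℝ, F ≠ 0 ∧ ∀ z ∈ frontier S, pev F z = 0 := by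
  induction hS using BooleanSubalgebra.closure_bot_sup_induction with
  | mem x hx =>
    obtain ⟨P, rfl⟩ := hx
    by_cases hP : P = 0
    · refine ⟨1, one_ne_zero, ?_⟩
      subst hP
      simp
    · refine ⟨P, hP, fun z hz => ?_⟩
      have hopen : IsOpen {z : ℂ | 0 < pev P z} :=
        isOpen_lt continuous_const (continuous_pev P)
      have hcl : closure {z : ℂ | 0 < pev P z} ⊆ {z | 0 ≤ pev P z} :=
        closure_minimal (fun z (hz : 0 < pev P z) => (le_of_lt hz : 0 ≤ pev P z))
          (isClosed_le continuous_const (continuous_pev P))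
      have hz' : z ∈ frontier {z : ℂ | 0 < pev P z} := hz
      rw [frontier, hopen.interior_eq] at hz'
      exact le_antisymm (not_lt.1 hz'.2) (hcl hz'.1)
  | bot => exact ⟨1, one_ne_zero, by simp⟩
  | sup x hx y hy hpx hpy =>
    obtain ⟨F, hF, hFz⟩ := hpx
    obtain ⟨G, hG, hGz⟩ := hpy
    refine ⟨F * G, mul_ne_zero hF hG, fun z hz => ?_⟩
    have hmul : pev (F * G) z = pev F z * pev G z := by simp [pev]
    rw [hmul]
    rcases frontier_union_subset x y hz with h | h
    · rw [hFz z h.1, zero_mul]
    · rw [hGz z h.2, mul_zero]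
  | compl x hx hpx =>
    obtain ⟨F, hF, hFz⟩ := hpx
    exact ⟨F, hF, fun z hz => hFz z (by rwa [frontier_compl] at hz)⟩

/-- For a nonempty bounded open set `U` and a nonzero polynomial `F`, some iterated vertical
derivative of `F` does not vanish at some point of `closure U \ interior (closure U)`. -/
lemma exists_finite_order {U : Set ℂ} (hUo : IsOpen U) (hUne : U.Nonempty)
    (hUb : Bornology.IsBounded U) (F : MvPolynomial (Fin 2) ℝ) (hF : F ≠ 0) :
    ∃ p ∈ closure U, p ∉ interior (closure U) ∧ ∃ j, pev (dY^[j] F) p ≠ 0 := by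
  by_contra hcon
  push Not at hcon
  obtain ⟨z₀, hz₀⟩ := hUne
  obtain ⟨ε, hε, hball⟩ := Metric.isOpen_iff.1 hUo z₀ hz₀
  obtain ⟨R, hR⟩ := hUb.closure.subset_closedBall 0
  apply hF
  refine MvPolynomial.funext_set ![Ioo (z₀.re - ε) (z₀.re + ε), univ] ?_ ?_
  · intro i
    fin_cases i
    · simpa using Set.Ioo_infinite (by linarith : z₀.re - ε < z₀.re + ε)
    · simpa using Set.infinite_univ
  · intro x hx
    have hx0 : x 0 ∈ Ioo (z₀.re - ε) (z₀.re + ε) := by simpa using hx 0 (mem_univ _)
    have hxe : x = ![x 0, x 1] := by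
      funext i; fin_cases i <;> rfl
    rw [hxe, map_zero]
    set c := x 0 with hc
    set T : Set ℝ := {t : ℝ | ((c : ℂ) + (t : ℂ) * I) ∈ closure U} with hT
    have hTne : T.Nonempty := by
      refine ⟨z₀.im, subset_closure (hball ?_)⟩
      rw [mem_ball, dist_eq_norm]
      have e : (c : ℂ) + (z₀.im : ℂ) * I - z₀ = ((c - z₀.re : ℝ) : ℂ) := by
        apply Complex.ext <;> simp
      rw [e, Complex.norm_real, Real.norm_eq_abs, abs_lt]
      exact ⟨by linarith [hx0.1], by linarith [hx0.2]⟩
    have hTb : BddAbove T := by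
      refine ⟨R, fun t ht => ?_⟩
      have h1 := hR ht
      rw [mem_closedBall, dist_zero_right] at h1
      have h2 := Complex.abs_im_le_norm ((c : ℂ) + (t : ℂ) * I)
      simp only [add_im, ofReal_im, mul_im, ofReal_re, I_im, mul_one, I_re, mul_zero, add_zero,
        zero_add] at h2
      exact (le_abs_self t).trans (h2.trans h1)
    have hTc : IsClosed T := isClosed_closure.preimage (by fun_prop)
    have hsup : sSup T ∈ T := hTc.csSup_mem hTne hTb
    have hnot : ((c : ℂ) + ((sSup T : ℝ) : ℂ) * I) ∉ interior (closure U) := by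
      intro hin
      obtain ⟨η, hη, hηb⟩ := Metric.isOpen_iff.1 isOpen_interior _ hin
      have hmem : ((c : ℂ) + ((sSup T + η / 2 : ℝ) : ℂ) * I)
          ∈ ball ((c : ℂ) + ((sSup T : ℝ) : ℂ) * I) η := by
        rw [mem_ball, dist_eq_norm]
        have e : (c : ℂ) + ((sSup T + η / 2 : ℝ) : ℂ) * I - ((c : ℂ) + ((sSup T : ℝ) : ℂ) * I)
            = ((η / 2 : ℝ) : ℂ) * I := by
          push_cast; ring
        rw [e, norm_mul, Complex.norm_I, mul_one, Complex.norm_real, Real.norm_eq_abs,
          abs_of_pos (by linarith)]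
        linarith
      have hmemT : sSup T + η / 2 ∈ T := by
        show _ ∈ closure U
        exact interior_subset (hηb hmem)
      have := le_csSup hTb hmemT
      linarith
    have hzero := hcon _ hsup hnot
    exact eval_eq_zero_of_iterate F c (sSup T)
      (fun j => by have := hzero j; rwa [pev_add_mul_I] at this) (x 1)

end Vale.Agent.H74
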