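import Mathlib
import Vale.Agent.H74.CocompactCore
import Vale.Agent.H74.NormalFamily
import Vale.Agent.H74.RiemannMap
import Vale.Agent.H74.PlaneLocal
import Vale.Agent.H74.SemialgFrontier

/-!
# Bounded semialgebraic plane domains with a cocompact group of automorphisms

If `U ⊆ ℂ` is a bounded connected open semialgebraic set and a group of biholomorphisms of `U`
has compact orbit space, then `U` is biholomorphic to the unit disc.
-/

open Set Filter Topology Metric Complex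

namespace Vale.Agent.H74

/-- Orbits accumulate at a boundary point `p` outside `interior (closure U)`: every compact
subset of `U` is moved into any prescribed ball around `p` by some element of `Γ`. -/
theorem orbit_limit {U : Set ℂ} (hUo : IsOpen U) (hUc : IsPreconnected U)
    (hUb : Bornology.IsBounded U) (Γ : Subgroup (Equiv.Perm U))
    (hol : ∀ γ ∈ Γ, ∃ G : ℂ → ℂ, DifferentiableOn ℂ G U ∧ ∀ x : U, G x = γ x)
    [CompactSpace (MulAction.orbitRel.Quotient Γ U)]
    {p : ℂ} (hpC : p ∈ closure U) (hpI : p ∉ interior (closure U))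
    {K' : Set ℂ} (hK' : IsCompact K') (hK'U : K' ⊆ U) {ρ : ℝ} (hρ : 0 < ρ) :
    ∃ γ ∈ Γ, ∀ z : U, (z : ℂ) ∈ K' → ((γ z : U) : ℂ) ∈ ball p ρ := by
  have hcont : ∀ γ ∈ Γ, Continuous (γ : U → U) := fun γ hγ =>
    IsHolomorphicSelfMap.continuous (hol γ hγ)
  obtain ⟨K, hK, hKU, hcov⟩ := exists_compact_fundamental hUo Γ hcont
  obtain ⟨x, hx, hxp⟩ := mem_closure_iff_seq_limit.1 hpC
  choose γ hγ y hyK hγy using fun n => hcov ⟨x n, hx n⟩
  choose G hG hGγ using fun n => hol (γ n) (hγ n)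
  obtain ⟨R, hR⟩ := hUb.subset_closedBall 0
  have hGmaps : ∀ n, MapsTo (G n) U (closedBall 0 R) := by
    intro n z hz
    have := hGγ n ⟨z, hz⟩
    simp only at this
    rw [this]
    exact hR (γ n ⟨z, hz⟩).2
  set 𝒰 : Ultrafilter ℕ := Ultrafilter.of atTop with h𝒰def
  have h𝒰 : (𝒰 : Filter ℕ) ≤ atTop := Ultrafilter.of_le atTop
  obtain ⟨L, hL, hLmaps, hLlim, -⟩ := exists_limit_fderiv 𝒰 hUo G hG hGmaps
  obtain ⟨y₀, hy₀K, hy₀⟩ := hK.ultrafilter_le_nhds' (𝒰.map (fun n => ((y n : U) : ℂ)))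
    (by
      rw [Ultrafilter.mem_map]
      exact Filter.Eventually.of_forall (fun n => hyK n))
  have hy₀U : y₀ ∈ U := hKU hy₀K
  have hytend : Tendsto (fun n => ((y n : U) : ℂ)) 𝒰 (𝓝 y₀) := hy₀
  have hLcont : ContinuousAt L y₀ := hL.continuousOn.continuousAt (hUo.mem_nhds hy₀U)
  have hxG : ∀ n, x n = G n (y n) := by
    intro n
    rw [hGγ n (y n), hγy n]
  have hxL : Tendsto x 𝒰 (𝓝 (L y₀)) := by
    rw [Metric.tendsto_nhds]
    intro ε hε
    have h1 := eventually_forall_mem_compact_lt (𝒰 : Filter ℕ) hUo G hG hGmaps L hL hLmaps hLlim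
      hK hKU (ε := ε / 2) (by linarith)
    have h2 : ∀ᶠ n in (𝒰 : Filter ℕ), dist (L (y n)) (L y₀) < ε / 2 :=
      (Metric.tendsto_nhds.1 (hLcont.tendsto.comp hytend)) (ε / 2) (by linarith)
    filter_upwards [h1, h2] with n hn1 hn2
    have hn1' := hn1 (y n) (hyK n)
    rw [← dist_eq_norm] at hn1'
    rw [hxG n]
    linarith [dist_triangle (G n (y n)) (L (y n)) (L y₀)]
  have hLp : L y₀ = p := tendsto_nhds_unique hxL (hxp.mono_left h𝒰)
  have hLclos : ∀ z ∈ U, L z ∈ closure U := by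
    intro z hz
    refine mem_closure_of_tendsto (hLlim z hz) (Filter.Eventually.of_forall fun n => ?_)
    rw [hGγ n ⟨z, hz⟩]
    exact (γ n ⟨z, hz⟩).2
  have hconst : ∀ z ∈ U, L z = p := by
    rcases (hL.analyticOnNhd hUo).is_constant_or_isOpen hUc with ⟨w, hw⟩ | hopen
    · intro z hz
      rw [hw z hz, ← hLp, hw y₀ hy₀U]
    · exfalso
      have h1 : L '' U ⊆ interior (closure U) :=
        interior_maximal (by rintro _ ⟨z, hz, rfl⟩; exact hLclos z hz) (hopen U subset_rfl hUo)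
      exact hpI (h1 ⟨y₀, hy₀U, hLp⟩)
  have h3 := eventually_forall_mem_compact_lt (𝒰 : Filter ℕ) hUo G hG hGmaps L hL hLmaps hLlim
    hK' hK'U (ε := ρ) hρ
  obtain ⟨n, hn⟩ := h3.exists
  refine ⟨γ n, hγ n, fun z hz => ?_⟩
  rw [mem_ball, dist_eq_norm, ← hGγ n z, ← hconst z z.2]
  exact hn z hz

/-- A bounded connected open subset of `ℂ` with a cocompact group of holomorphic automorphisms
which agrees, near a boundary point outside `interior (closure U)`, with a simply connected open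
set, is simply connected. -/
theorem isSimplyConnected_of_cocompact {U : Set ℂ} (hUo : IsOpen U) (hUc : IsConnected U)
    (hUb : Bornology.IsBounded U) (Γ : Subgroup (Equiv.Perm U))
    (hol : ∀ γ ∈ Γ, ∃ G : ℂ → ℂ, DifferentiableOn ℂ G U ∧ ∀ x : U, G x = γ x)
    [CompactSpace (MulAction.orbitRel.Quotient Γ U)]
    {p : ℂ} (hpC : p ∈ closure U) (hpI : p ∉ interior (closure U)) {ρ : ℝ} (hρ : 0 < ρ)
    {W : Set ℂ} (hWs : IsSimplyConnected W) (hWU : W ⊆ U) (hUW : U ∩ ball p ρ ⊆ W) :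
    IsSimplyConnected U := by
  have hcont : ∀ γ ∈ Γ, Continuous (γ : U → U) := fun γ hγ =>
    IsHolomorphicSelfMap.continuous (hol γ hγ)
  have hpath : PathConnectedSpace U :=
    isPathConnected_iff_pathConnectedSpace.1 (hUo.isConnected_iff_isPathConnected.1 hUc)
  refine simply_connected_iff_loops_nullhomotopic.2 ⟨hpath, fun x ℓ => ?_⟩
  have hK' : IsCompact (Subtype.val '' (range ℓ) : Set ℂ) :=
    (isCompact_range ℓ.continuous).image continuous_subtype_val
  have hK'U : (Subtype.val '' (range ℓ) : Set ℂ) ⊆ U := by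
    rintro _ ⟨u, -, rfl⟩; exact u.2
  obtain ⟨γ, hγ, hγK⟩ := orbit_limit hUo hUc.isPreconnected hUb Γ hol hpC hpI hK' hK'U hρ
  let e : U ≃ₜ U :=
    { toEquiv := γ
      continuous_toFun := hcont γ hγ
      continuous_invFun := hcont γ⁻¹ (Γ.inv_mem hγ) }
  have hW' : IsSimplyConnected (Subtype.val ⁻¹' W : Set U) := by
    rw [← Topology.IsEmbedding.subtypeVal.isSimplyConnected_image, Subtype.image_preimage_coe,
      inter_eq_right.2 hWU]
    exact hWs
  have hV : IsSimplyConnected (e ⁻¹' (Subtype.val ⁻¹' W : Set U)) :=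
    e.isSimplyConnected_preimage.2 hW'
  have hℓ : ∀ t, ℓ t ∈ e ⁻¹' (Subtype.val ⁻¹' W : Set U) := by
    intro t
    exact hUW ⟨(γ (ℓ t)).2, hγK (ℓ t) ⟨ℓ t, mem_range_self t, rfl⟩⟩
  obtain ⟨F, -⟩ := (isSimplyConnected_iff_exists_homotopy_refl_forall_mem.1 hV).2 x ℓ hℓ
  exact ⟨F⟩

/-- **Main theorem.** A bounded connected open semialgebraic subset `U` of `ℂ` admitting a group
of biholomorphisms with compact orbit space is biholomorphic to the unit disc. -/
theorem disc_of_cocompact_semialgebraic (U : Set ℂ) (hUo : IsOpen U) (hUc : IsConnected U)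
    (hUb : Bornology.IsBounded U)
    (hUs : U ∈ BooleanSubalgebra.closure (Set.range fun P : MvPolynomial (Fin 2) ℝ =>
      {z : ℂ | 0 < MvPolynomial.eval ![z.re, z.im] P}))
    (Γ : Subgroup (Equiv.Perm U))
    (hol : ∀ γ ∈ Γ, ∃ G : ℂ → ℂ, DifferentiableOn ℂ G U ∧ ∀ x : U, G x = γ x)
    [CompactSpace (MulAction.orbitRel.Quotient Γ U)] :
    ∃ f : ℂ → ℂ, DifferentiableOn ℂ f U ∧ InjOn f U ∧ f '' U = ball 0 1 := by
  obtain ⟨F, hF, hFz⟩ := frontier_subset_zeros hUs
  obtain ⟨p, hpC, hpI, ρ, hρ, W, -, hWs, hWU, hUW⟩ :=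
    local_structure hUo (fun j => pev (dY^[j] F)) (fun j => continuous_pev _)
      (fun j x t => by
        have := hasDerivAt_pev (dY^[j] F) x t
        rwa [← Function.iterate_succ_apply' dY j F] at this)
      hFz (exists_finite_order hUo hUc.nonempty hUb F hF)
  have hsc := isSimplyConnected_of_cocompact hUo hUc hUb Γ hol hpC hpI hρ hWs hWU hUW
  refine riemann_mapping hUo hsc (fun h => ?_)
  rw [h] at hUb
  exact (NormedSpace.unbounded_univ ℝ ℂ) hUb

end Vale.Agent.H74
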