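import Mathlib
import Vale.Agent.H74.CocompactCore
import Vale.Agent.H74.NormalFamily
import Vale.Agent.H74.RiemannMap
import Vale.Agent.H74.PlaneLocal
import Vale.Agent.H74.SemialgFrontier

/-!
# Products of bounded semialgebraic plane domains with a cocompact group of automorphisms

If `U = U₁ × ⋯ × U_N ⊆ ℂ^N` is a product of bounded connected open semialgebraic subsets of `ℂ`
and a group of biholomorphisms of `U` has compact orbit space, then `U` is biholomorphic to the
unit polydisc.
-/

open Set Filter Topology Metric Complex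

namespace Vale.Agent.H74

section General

variable {E : Type*} [NormedAddCommGroup E] [NormedSpace ℂ E] [FiniteDimensional ℂ E]

/-- Orbits accumulate at a rigid boundary point `p` (one at which every holomorphic map
`U → closure U` taking the value `p` is constant): every compact subset of `U` is moved into any
prescribed ball around `p` by some element of `Γ`. -/
theorem orbit_limit_of_rigid {U : Set E} (hUo : IsOpen U) (hUb : Bornology.IsBounded U)
    (Γ : Subgroup (Equiv.Perm U))
    (hol : ∀ γ ∈ Γ, ∃ G : E → E, DifferentiableOn ℂ G U ∧ ∀ x : U, G x = γ x)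
    [CompactSpace (MulAction.orbitRel.Quotient Γ U)]
    {p : E} (hpC : p ∈ closure U)
    (hrigid : ∀ L : E → E, DifferentiableOn ℂ L U → (∀ z ∈ U, L z ∈ closure U) →
      (∃ y ∈ U, L y = p) → ∀ z ∈ U, L z = p)
    {K' : Set E} (hK' : IsCompact K') (hK'U : K' ⊆ U) {ρ : ℝ} (hρ : 0 < ρ) :
    ∃ γ ∈ Γ, ∀ z : U, (z : E) ∈ K' → ((γ z : U) : E) ∈ ball p ρ := by
  have hcont : ∀ γ ∈ Γ, Continuous (γ : U → U) := fun γ hγ =>
    IsHolomorphicSelfMap.continuous (hol γ hγ)
  obtain ⟨K, hK, hKU, hcov⟩ := exists_compact_fundamental hUo Γ hcont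
  obtain ⟨x, hx, hxp⟩ := mem_closure_iff_seq_limit.1 hpC
  choose γ hγ y hyK hγy using fun n => hcov ⟨x n, hx n⟩
  choose G hG hGγ using fun n => hol (γ n) (hγ n)
  obtain ⟨R, hR⟩ := hUb.subset_closedBall 0
  have hGmaps : ∀ n, MapsTo (G n) U (closedBall 0 R) := by
    intro n z hz
    have := hGγ n ⟨z, hz⟩
    simp only at this
    rw [this]
    exact hR (γ n ⟨z, hz⟩).2
  set 𝒰 : Ultrafilter ℕ := Ultrafilter.of atTop with h𝒰def
  have h𝒰 : (𝒰 : Filter ℕ) ≤ atTop := Ultrafilter.of_le atTop
  obtain ⟨L, hL, hLmaps, hLlim, -⟩ := exists_limit_fderiv 𝒰 hUo G hG hGmaps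
  obtain ⟨y₀, hy₀K, hy₀⟩ := hK.ultrafilter_le_nhds' (𝒰.map (fun n => ((y n : U) : E)))
    (by
      rw [Ultrafilter.mem_map]
      exact Filter.Eventually.of_forall (fun n => hyK n))
  have hy₀U : y₀ ∈ U := hKU hy₀K
  have hytend : Tendsto (fun n => ((y n : U) : E)) 𝒰 (𝓝 y₀) := hy₀
  have hLcont : ContinuousAt L y₀ := hL.continuousOn.continuousAt (hUo.mem_nhds hy₀U)
  have hxG : ∀ n, x n = G n (y n) := by
    intro n
    rw [hGγ n (y n), hγy n]
  have hxL : Tendsto x 𝒰 (𝓝 (L y₀)) := by
    rw [Metric.tendsto_nhds]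
    intro ε hε
    have h1 := eventually_forall_mem_compact_lt (𝒰 : Filter ℕ) hUo G hG hGmaps L hL hLmaps hLlim
      hK hKU (ε := ε / 2) (by linarith)
    have h2 : ∀ᶠ n in (𝒰 : Filter ℕ), dist (L (y n)) (L y₀) < ε / 2 :=
      (Metric.tendsto_nhds.1 (hLcont.tendsto.comp hytend)) (ε / 2) (by linarith)
    filter_upwards [h1, h2] with n hn1 hn2
    have hn1' := hn1 (y n) (hyK n)
    rw [← dist_eq_norm] at hn1'
    rw [hxG n]
    linarith [dist_triangle (G n (y n)) (L (y n)) (L y₀)]
  have hLp : L y₀ = p := tendsto_nhds_unique hxL (hxp.mono_left h𝒰)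
  have hLclos : ∀ z ∈ U, L z ∈ closure U := by
    intro z hz
    refine mem_closure_of_tendsto (hLlim z hz) (Filter.Eventually.of_forall fun n => ?_)
    rw [hGγ n ⟨z, hz⟩]
    exact (γ n ⟨z, hz⟩).2
  have hconst : ∀ z ∈ U, L z = p := hrigid L hL hLclos ⟨y₀, hy₀U, hLp⟩
  have h3 := eventually_forall_mem_compact_lt (𝒰 : Filter ℕ) hUo G hG hGmaps L hL hLmaps hLlim
    hK' hK'U (ε := ρ) hρ
  obtain ⟨n, hn⟩ := h3.exists
  refine ⟨γ n, hγ n, fun z hz => ?_⟩
  rw [mem_ball, dist_eq_norm, ← hGγ n z, ← hconst z z.2]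
  exact hn z hz

/-- A bounded connected open set with a cocompact group of holomorphic automorphisms which
agrees, near a rigid boundary point, with a simply connected set, is simply connected. -/
theorem isSimplyConnected_of_cocompact_of_rigid {U : Set E} (hUo : IsOpen U)
    (hUc : IsConnected U) (hUb : Bornology.IsBounded U) (Γ : Subgroup (Equiv.Perm U))
    (hol : ∀ γ ∈ Γ, ∃ G : E → E, DifferentiableOn ℂ G U ∧ ∀ x : U, G x = γ x)
    [CompactSpace (MulAction.orbitRel.Quotient Γ U)]
    {p : E} (hpC : p ∈ closure U)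
    (hrigid : ∀ L : E → E, DifferentiableOn ℂ L U → (∀ z ∈ U, L z ∈ closure U) →
      (∃ y ∈ U, L y = p) → ∀ z ∈ U, L z = p)
    {ρ : ℝ} (hρ : 0 < ρ)
    {W : Set E} (hWs : IsSimplyConnected W) (hWU : W ⊆ U) (hUW : U ∩ ball p ρ ⊆ W) :
    IsSimplyConnected U := by
  have hcont : ∀ γ ∈ Γ, Continuous (γ : U → U) := fun γ hγ =>
    IsHolomorphicSelfMap.continuous (hol γ hγ)
  have hpath : PathConnectedSpace U :=
    isPathConnected_iff_pathConnectedSpace.1 (hUo.isConnected_iff_isPathConnected.1 hUc)
  refine simply_connected_iff_loops_nullhomotopic.2 ⟨hpath, fun x ℓ => ?_⟩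
  have hK' : IsCompact (Subtype.val '' (range ℓ) : Set E) :=
    (isCompact_range ℓ.continuous).image continuous_subtype_val
  have hK'U : (Subtype.val '' (range ℓ) : Set E) ⊆ U := by
    rintro _ ⟨u, -, rfl⟩; exact u.2
  obtain ⟨γ, hγ, hγK⟩ := orbit_limit_of_rigid hUo hUb Γ hol hpC hrigid hK' hK'U hρ
  let e : U ≃ₜ U :=
    { toEquiv := γ
      continuous_toFun := hcont γ hγ
      continuous_invFun := hcont γ⁻¹ (Γ.inv_mem hγ) }
  have hW' : IsSimplyConnected (Subtype.val ⁻¹' W : Set U) := by
    rw [← Topology.IsEmbedding.subtypeVal.isSimplyConnected_image, Subtype.image_preimage_coe,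
      inter_eq_right.2 hWU]
    exact hWs
  have hV : IsSimplyConnected (e ⁻¹' (Subtype.val ⁻¹' W : Set U)) :=
    e.isSimplyConnected_preimage.2 hW'
  have hℓ : ∀ t, ℓ t ∈ e ⁻¹' (Subtype.val ⁻¹' W : Set U) := by
    intro t
    exact hUW ⟨(γ (ℓ t)).2, hγK (ℓ t) ⟨ℓ t, mem_range_self t, rfl⟩⟩
  obtain ⟨F, -⟩ := (isSimplyConnected_iff_exists_homotopy_refl_forall_mem.1 hV).2 x ℓ hℓ
  exact ⟨F⟩

end General


section OpenMapping

/-- A holomorphic function of one variable on a connected open set, with values in a set `A` and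
taking a value outside `interior A`, is constant. -/
lemma eq_const_of_mapsTo_of_notMem_interior_one {D : Set ℂ} (hD : IsOpen D)
    (hDc : IsPreconnected D) {h : ℂ → ℂ} (hh : DifferentiableOn ℂ h D) {A : Set ℂ}
    (hA : ∀ t ∈ D, h t ∈ A) {t₀ : ℂ} (ht₀ : t₀ ∈ D) (hc : h t₀ ∉ interior A) :
    ∀ t ∈ D, h t = h t₀ := by
  rcases (hh.analyticOnNhd hD).is_constant_or_isOpen hDc with ⟨w, hw⟩ | hopen
  · intro t ht
    rw [hw t ht, hw t₀ ht₀]
  · exfalso
    have h1 : h '' D ⊆ interior A :=
      interior_maximal (by rintro _ ⟨t, ht, rfl⟩; exact hA t ht) (hopen D subset_rfl hD)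
    exact hc (h1 ⟨t₀, ht₀, rfl⟩)

/-- A holomorphic function of several variables on a connected open set, with values in a set
`A` and taking a value outside `interior A`, is constant. -/
lemma eq_const_of_mapsTo_of_notMem_interior {E : Type*} [NormedAddCommGroup E]
    [NormedSpace ℂ E] {V : Set E} (hVo : IsOpen V) (hVc : IsPreconnected V) {g : E → ℂ}
    (hg : DifferentiableOn ℂ g V) {A : Set ℂ} (hA : ∀ z ∈ V, g z ∈ A) {y : E} (hy : y ∈ V)
    (hc : g y ∉ interior A) : ∀ z ∈ V, g z = g y := by
  -- local constancy at every point where the value is `g y`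
  have hloc : ∀ z ∈ V, g z = g y → z ∈ interior {w | w ∈ V ∧ g w = g y} := by
    intro z hz hgz
    obtain ⟨r, hr, hball⟩ := Metric.isOpen_iff.1 hVo z hz
    refine mem_interior.2 ⟨ball z r, fun w hw => ⟨hball hw, ?_⟩, isOpen_ball, mem_ball_self hr⟩
    set φ : ℂ → E := fun t => z + t • (w - z) with hφ
    have hφc : Continuous φ := by fun_prop
    have hDo : IsOpen (φ ⁻¹' ball z r) := isOpen_ball.preimage hφc
    have hDconv : Convex ℝ (φ ⁻¹' ball z r) := by
      intro t₁ ht₁ t₂ ht₂ a b ha hb hab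
      have e : φ (a • t₁ + b • t₂) = a • φ t₁ + b • φ t₂ := by
        simp only [hφ]
        have hb' : b = 1 - a := by linarith
        subst hb'
        simp only [Complex.real_smul, add_smul, smul_add, sub_smul, one_smul, mul_smul]
        module
      rw [mem_preimage, e]
      exact (convex_ball z r) ht₁ ht₂ ha hb hab
    have h0 : (0 : ℂ) ∈ φ ⁻¹' ball z r := by simp [hφ, hr]
    have h1 : (1 : ℂ) ∈ φ ⁻¹' ball z r := by simpa [hφ] using hw
    have hh : DifferentiableOn ℂ (fun t => g (φ t)) (φ ⁻¹' ball z r) := by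
      refine hg.comp ?_ (fun t ht => hball ht)
      have : Differentiable ℂ φ := by fun_prop
      exact this.differentiableOn
    have key := eq_const_of_mapsTo_of_notMem_interior_one hDo hDconv.isPreconnected hh
      (A := A) (fun t ht => hA _ (hball ht)) h0 (by simpa [hφ, hgz] using hc) 1 h1
    simpa [hφ, hgz] using key
  by_contra hcon
  push Not at hcon
  obtain ⟨z, hz, hgz⟩ := hcon
  have hS₂ : IsOpen (V ∩ g ⁻¹' {g y}ᶜ) :=
    hg.continuousOn.isOpen_inter_preimage hVo isOpen_compl_singleton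
  obtain ⟨w, hwV, hw1, hw2⟩ := hVc _ _ isOpen_interior hS₂
    (fun w hw => by
      by_cases hgw : g w = g y
      · exact Or.inl (hloc w hw hgw)
      · exact Or.inr ⟨hw, hgw⟩)
    ⟨y, hy, hloc y hy rfl⟩ ⟨z, hz, hz, hgz⟩
  exact hw2.2 (interior_subset hw1).2

end OpenMapping

section PiSimplyConnected

variable {ι : Type*} {X : ι → Type*} [∀ i, TopologicalSpace (X i)]

/-- A product of simply connected sets is simply connected. -/
theorem isSimplyConnected_univ_pi {s : ∀ i, Set (X i)} (h : ∀ i, IsSimplyConnected (s i)) :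
    IsSimplyConnected (Set.univ.pi s) := by
  rw [isSimplyConnected_iff_exists_homotopy_refl_forall_mem]
  refine ⟨IsPathConnected.pi fun i => (h i).isPathConnected, fun x p hp => ?_⟩
  have hp' : ∀ i t, (p.map (continuous_apply i)) t ∈ s i := fun i t => hp t i (mem_univ i)
  choose F hF using fun i =>
    (isSimplyConnected_iff_exists_homotopy_refl_forall_mem.1 (h i)).2 (x i)
      (p.map (continuous_apply i)) (hp' i)
  refine ⟨(Path.Homotopic.piHomotopy (fun i => p.map (continuous_apply i))
    (fun i => Path.refl (x i)) F).cast ?_ ?_, ?_⟩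
  · ext t i
    rfl
  · ext t i
    rfl
  · intro t i _
    exact hF i t

/-- Each factor of a simply connected product set is simply connected. -/
theorem isSimplyConnected_of_univ_pi [DecidableEq ι] {s : ∀ i, Set (X i)}
    (h : IsSimplyConnected (Set.univ.pi s)) (i : ι) : IsSimplyConnected (s i) := by
  obtain ⟨b, hb⟩ := h.nonempty
  rw [isSimplyConnected_iff_exists_homotopy_refl_forall_mem] at h ⊢
  refine ⟨?_, fun a q hq => ?_⟩
  · have h1 := h.1.image (continuous_apply i)
    rwa [Set.eval_image_univ_pi ⟨b, hb⟩] at h1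
  · have hcont : Continuous fun t => Function.update b i (q t) :=
      continuous_const.update i q.continuous
    let P : Path (Function.update b i a) (Function.update b i a) :=
      { toFun := fun t => Function.update b i (q t)
        continuous_toFun := hcont
        source' := by simp
        target' := by simp }
    have hP : ∀ t, P t ∈ Set.univ.pi s := by
      intro t j _
      by_cases hj : j = i
      · subst hj
        simpa [P] using hq t
      · simpa [P, Function.update_of_ne hj] using hb j (mem_univ j)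
    obtain ⟨F, hF⟩ := h.2 _ P hP
    refine ⟨{ toFun := fun ts => F ts i
              continuous_toFun := (continuous_apply i).comp F.continuous
              map_zero_left := fun t => ?_
              map_one_left := fun t => ?_
              prop' := fun t u hu => ?_ }, fun ts => hF ts i (mem_univ i)⟩
    · simp [P]
    · simp
    · have := F.prop' t u hu
      simp only [ContinuousMap.toFun_eq_coe, Path.coe_toContinuousMap] at this ⊢
      have h2 := congrFun this i
      simpa [P] using h2

end PiSimplyConnected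

/-- **Product theorem.** Let `U = U₀ × ⋯ × U_{N-1} ⊆ ℂ^N` be a product of bounded connected open
semialgebraic subsets of `ℂ`. If a group of biholomorphisms of `U` has compact orbit space, then
`U` is biholomorphic to the unit polydisc. -/
theorem polydisc_of_cocompact_semialgebraic_product (N : ℕ) (U : Fin N → Set ℂ)
    (hUo : ∀ i, IsOpen (U i)) (hUc : ∀ i, IsConnected (U i))
    (hUb : ∀ i, Bornology.IsBounded (U i))
    (hUs : ∀ i, U i ∈ BooleanSubalgebra.closure
      (Set.range fun P : MvPolynomial (Fin 2) ℝ =>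
        {z : ℂ | 0 < MvPolynomial.eval ![z.re, z.im] P}))
    (Γ : Subgroup (Equiv.Perm (Set.univ.pi U)))
    (hol : ∀ γ ∈ Γ, ∃ G : (Fin N → ℂ) → (Fin N → ℂ),
      DifferentiableOn ℂ G (Set.univ.pi U) ∧ ∀ x : Set.univ.pi U, G x = γ x)
    [CompactSpace (MulAction.orbitRel.Quotient Γ (Set.univ.pi U))] :
    ∃ f : (Fin N → ℂ) → (Fin N → ℂ), DifferentiableOn ℂ f (Set.univ.pi U) ∧
      InjOn f (Set.univ.pi U) ∧
      f '' (Set.univ.pi U) = Set.univ.pi fun _ : Fin N => ball (0 : ℂ) 1 := by
  have hloc : ∀ i, ∃ p ∈ closure (U i), p ∉ interior (closure (U i)) ∧ ∃ ρ > 0, ∃ W : Set ℂ,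
      IsOpen W ∧ IsSimplyConnected W ∧ W ⊆ U i ∧ U i ∩ ball p ρ ⊆ W := by
    intro i
    obtain ⟨F, hF, hFz⟩ := frontier_subset_zeros (hUs i)
    exact local_structure (hUo i) (fun j => pev (dY^[j] F)) (fun j => continuous_pev _)
      (fun j x t => by
        have := hasDerivAt_pev (dY^[j] F) x t
        rwa [← Function.iterate_succ_apply' dY j F] at this)
      hFz (exists_finite_order (hUo i) (hUc i).nonempty (hUb i) F hF)
  choose p hpC hpI ρ hρ W hWo hWs hWU hUW using hloc
  have hVo : IsOpen (Set.univ.pi U) := isOpen_set_pi finite_univ (fun i _ => hUo i)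
  have hVc : IsConnected (Set.univ.pi U) := isConnected_univ_pi.2 hUc
  have hVb : Bornology.IsBounded (Set.univ.pi U) := Bornology.IsBounded.pi hUb
  obtain ⟨r, hr, hrρ⟩ : ∃ r > 0, ∀ i, r ≤ ρ i := by
    rcases isEmpty_or_nonempty (Fin N) with hN | hN
    · exact ⟨1, one_pos, fun i => isEmptyElim i⟩
    · obtain ⟨i₀, hi₀⟩ := Finite.exists_min ρ
      exact ⟨ρ i₀, hρ i₀, hi₀⟩
  have hpV : p ∈ closure (Set.univ.pi U) := by
    rw [closure_pi_set]
    exact fun i _ => hpC i
  have hrigid : ∀ L : (Fin N → ℂ) → (Fin N → ℂ), DifferentiableOn ℂ L (Set.univ.pi U) →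
      (∀ z ∈ Set.univ.pi U, L z ∈ closure (Set.univ.pi U)) →
      (∃ y ∈ Set.univ.pi U, L y = p) → ∀ z ∈ Set.univ.pi U, L z = p := by
    rintro L hL hLc ⟨y, hy, hLy⟩ z hz
    funext i
    have hLi : DifferentiableOn ℂ (fun z => L z i) (Set.univ.pi U) := differentiableOn_pi.1 hL i
    have hA : ∀ z ∈ Set.univ.pi U, (fun z => L z i) z ∈ closure (U i) := fun z hz => by
      have h6 := hLc z hz
      rw [closure_pi_set] at h6
      exact h6 i (mem_univ i)
    have hc : (fun z => L z i) y ∉ interior (closure (U i)) := by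
      simp only [hLy]
      exact hpI i
    have h7 := eq_const_of_mapsTo_of_notMem_interior hVo hVc.isPreconnected hLi hA hy hc z hz
    simpa [hLy] using h7
  have hWpi : IsSimplyConnected (Set.univ.pi W) := isSimplyConnected_univ_pi hWs
  have hsc : IsSimplyConnected (Set.univ.pi U) :=
    isSimplyConnected_of_cocompact_of_rigid hVo hVc hVb Γ hol hpV hrigid hr hWpi
      (pi_mono fun i _ => hWU i) (by
        rintro z ⟨hzV, hzb⟩ i _
        refine hUW i ⟨hzV i (mem_univ i), ?_⟩
        have h2 : dist (z i) (p i) < r := lt_of_le_of_lt (dist_le_pi_dist z p i) hzb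
        exact mem_ball.2 (h2.trans_le (hrρ i)))
  have hsci : ∀ i, IsSimplyConnected (U i) := isSimplyConnected_of_univ_pi hsc
  have hne : ∀ i, U i ≠ univ := fun i h => by
    have h3 := hUb i
    rw [h] at h3
    exact (NormedSpace.unbounded_univ ℝ ℂ) h3
  choose f hfd hfi hfim using fun i => riemann_mapping (hUo i) (hsci i) (hne i)
  refine ⟨fun z i => f i (z i), ?_, ?_, ?_⟩
  · rw [differentiableOn_pi]
    intro i
    exact (hfd i).comp (differentiable_apply i).differentiableOn (fun z hz => hz i (mem_univ i))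
  · intro z hz w hw hzw
    funext i
    exact hfi i (hz i (mem_univ i)) (hw i (mem_univ i)) (congrFun hzw i)
  · ext w
    constructor
    · rintro ⟨z, hz, rfl⟩ i _
      rw [← hfim i]
      exact ⟨z i, hz i (mem_univ i), rfl⟩
    · intro hw
      have h4 : ∀ i, ∃ u ∈ U i, f i u = w i := fun i => by
        have h5 := hw i (mem_univ i)
        rw [← hfim i] at h5
        exact h5
      choose z hz hzw using h4
      exact ⟨z, fun i _ => hz i, funext hzw⟩

end Vale.Agent.H74
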